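import Mathlib

/-!
Purely inseparable exponent-one extensions: degree `p` simple subextensions, exchange property,
and separating derivations.
-/

set_option autoImplicit false
set_option linter.unusedSectionVars false

open Polynomial IntermediateField

namespace Crest.Agent.H1.Milnor

section General

variable {F K : Type*} [Field F] [Field K] [Algebra F K] {p : ℕ} [hp : Fact p.Prime] [CharP F p]

/-- `K/F` is purely inseparable of exponent at most one: all `p`-th powers lie in `F`. -/
def PowIn (F K : Type*) [Field F] [Field K] [Algebra F K] (p : ℕ) : Prop :=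
  ∀ a : K, ∃ c : F, algebraMap F K c = a ^ p

theorem minpoly_eq (hF : PowIn F K p) (hK : CharP K p) {x : K} (hx : x ∉ (algebraMap F K).range) :
    ∃ c : F, algebraMap F K c = x ^ p ∧ minpoly F x = X ^ p - C c := by
  obtain ⟨c, hc⟩ := hF x
  refine ⟨c, hc, ?_⟩
  have hirr : Irreducible (X ^ p - C c : F[X]) := by
    apply X_pow_sub_C_irreducible_of_prime hp.out
    intro b hb
    apply hx
    refine ⟨b, ?_⟩
    have h1 : (algebraMap F K b) ^ p = x ^ p := by rw [← map_pow, hb, hc]
    exact frobenius_inj K p (by simpa [frobenius_def] using h1)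
  symm
  apply minpoly.eq_of_irreducible_of_monic hirr
  · simp [hc]
  · exact monic_X_pow_sub_C _ hp.out.ne_zero

theorem natDegree_minpoly (hF : PowIn F K p) (hK : CharP K p) {x : K}
    (hx : x ∉ (algebraMap F K).range) : (minpoly F x).natDegree = p := by
  obtain ⟨c, _, h⟩ := minpoly_eq hF hK hx
  rw [h, natDegree_X_pow_sub_C]

theorem isIntegral' (hF : PowIn F K p) (x : K) : IsIntegral F x := by
  obtain ⟨c, hc⟩ := hF x
  refine ⟨X ^ p - C c, monic_X_pow_sub_C _ hp.out.ne_zero, ?_⟩
  simp [hc]

theorem indep (hF : PowIn F K p) (hK : CharP K p) {x : K} (hx : x ∉ (algebraMap F K).range)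
    {Q : F[X]} (hQ : Q.natDegree < p) (h : aeval x Q = 0) : Q = 0 := by
  by_contra hne
  have := natDegree_le_natDegree (minpoly.degree_le_of_ne_zero F x hne h)
  rw [natDegree_minpoly hF hK hx] at this
  omega

theorem repr (hF : PowIn F K p) (hK : CharP K p) {x : K} {z : K} (hz : z ∈ F⟮x⟯) :
    ∃ Q : F[X], Q.natDegree < p ∧ aeval x Q = z := by
  have hint := isIntegral' hF x
  by_cases hx : x ∈ (algebraMap F K).range
  · have : z ∈ (⊥ : IntermediateField F K) := by
      have h2 : F⟮x⟯ = ⊥ := by
        rw [IntermediateField.adjoin_simple_eq_bot_iff]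
        obtain ⟨c, hc⟩ := hx
        exact ⟨c, hc⟩
      rwa [h2] at hz
    obtain ⟨c, hc⟩ := IntermediateField.mem_bot.1 this
    exact ⟨C c, by simpa using hp.out.pos, by simpa using hc⟩
  · have h1 : z ∈ (Algebra.adjoin F {x}) := by
      rw [← IntermediateField.adjoin_simple_toSubalgebra_of_isAlgebraic hint.isAlgebraic]
      exact hz
    rw [Algebra.adjoin_singleton_eq_range_aeval] at h1
    obtain ⟨Q, hQ⟩ := h1
    refine ⟨Q %ₘ minpoly F x, ?_, ?_⟩
    · have := natDegree_modByMonic_lt Q (minpoly.monic hint) (minpoly.ne_one F x)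
      rwa [natDegree_minpoly hF hK hx] at this
    · rw [← hQ]
      exact aeval_modByMonic_eq_self_of_root (minpoly.aeval F x)

theorem finrank_adjoin (hF : PowIn F K p) (hK : CharP K p) {x : K}
    (hx : x ∉ (algebraMap F K).range) : Module.finrank F F⟮x⟯ = p := by
  rw [IntermediateField.adjoin.finrank (isIntegral' hF x), natDegree_minpoly hF hK hx]

theorem exchange (hF : PowIn F K p) (hK : CharP K p) {x z : K} (hz : z ∈ F⟮x⟯)
    (hzF : z ∉ (algebraMap F K).range) : x ∈ F⟮z⟯ := by
  have hx : x ∉ (algebraMap F K).range := by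
    rintro hx
    have h2 : F⟮x⟯ = ⊥ := by
      rw [IntermediateField.adjoin_simple_eq_bot_iff]
      obtain ⟨c, hc⟩ := hx
      exact ⟨c, hc⟩
    rw [h2] at hz
    exact hzF (IntermediateField.mem_bot.1 hz)
  have hle : F⟮z⟯ ≤ F⟮x⟯ := by
    rw [IntermediateField.adjoin_simple_le_iff]; exact hz
  have : FiniteDimensional F F⟮x⟯ := IntermediateField.adjoin.finiteDimensional (isIntegral' hF x)
  have heq : F⟮z⟯ = F⟮x⟯ := IntermediateField.eq_of_le_of_finrank_eq hle
    (by rw [finrank_adjoin hF hK hx, finrank_adjoin hF hK hzF])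
  rw [heq]
  exact IntermediateField.mem_adjoin_simple_self F x

theorem PowIn.tower (hF : PowIn F K p) (E : IntermediateField F K) : PowIn E K p := by
  intro a
  obtain ⟨c, hc⟩ := hF a
  exact ⟨algebraMap F E c, by simpa using hc⟩

/-- derivation on a simple extension -/
theorem exists_derivation_simple (hF : PowIn F K p) (hK : CharP K p) {x : K}
    (hx : x ∉ (algebraMap F K).range) (htop : F⟮x⟯ = ⊤) :
    ∃ D : Derivation F K K, D x = 1 := by
  have hsurj : Function.Surjective (aeval x : F[X] →ₐ[F] K) := by
    intro z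
    have hz : z ∈ F⟮x⟯ := by rw [htop]; trivial
    obtain ⟨Q, _, hQ⟩ := repr hF hK hz
    exact ⟨Q, hQ⟩
  obtain ⟨c, hc, hmin⟩ := minpoly_eq hF hK hx
  have hd : ∀ Q : F[X], (aeval x : F[X] →ₐ[F] K) Q = 0 →
      (aeval x : F[X] →ₐ[F] K) (Polynomial.derivative' Q) = 0 := by
    intro Q hQ
    obtain ⟨R, hR⟩ := minpoly.dvd F x hQ
    have h0 : aeval x (minpoly F x) = 0 := minpoly.aeval F x
    have hder : derivative (minpoly F x) = 0 := by
      rw [hmin, derivative_sub, derivative_C, derivative_X_pow, CharP.cast_eq_zero]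
      simp
    change aeval x (derivative Q) = 0
    rw [hR, derivative_mul, hder, zero_mul, zero_add, map_mul, h0, zero_mul]
  refine ⟨Derivation.liftOfSurjective hsurj hd, ?_⟩
  have := Derivation.liftOfSurjective_apply hsurj hd X
  rw [aeval_X] at this
  rw [this]
  change aeval x (derivative X) = 1
  simp

theorem exists_derivation (hF : PowIn F K p) (hK : CharP K p) {x : K}
    (hx : x ∉ (algebraMap F K).range) :
    ∃ D : Derivation F K K, D x = 1 := by
  -- maximal intermediate field not containing x
  obtain ⟨M, hM⟩ : ∃ M : IntermediateField F K, Maximal (fun M => x ∉ M) M := by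
    refine zorn_le₀ {M : IntermediateField F K | x ∉ M} ?_
    intro c hc hchain
    rcases c.eq_empty_or_nonempty with rfl | hne
    · refine ⟨⊥, ?_, by simp⟩
      intro h
      exact hx (IntermediateField.mem_bot.1 h)
    · refine ⟨sSup c, ?_, fun z hz => le_sSup hz⟩
      intro hmem
      have : Nonempty c := hne.to_subtype
      have hdir : Directed (· ≤ ·) (fun i : c => (i : IntermediateField F K)) := by
        rintro ⟨a, ha⟩ ⟨b, hb⟩
        rcases hchain.total ha hb with h | h
        · exact ⟨⟨b, hb⟩, h, le_refl _⟩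
        · exact ⟨⟨a, ha⟩, le_refl _, h⟩
      rw [sSup_eq_iSup'] at hmem
      have := IntermediateField.coe_iSup_of_directed hdir
      have h3 : x ∈ ((⨆ i : c, (i : IntermediateField F K) : IntermediateField F K) : Set K) := hmem
      rw [this] at h3
      obtain ⟨s, ⟨i, rfl⟩, hs⟩ := h3
      exact hc i.2 hs
  have hxM : x ∉ M := hM.prop
  have hFM : PowIn M K p := hF.tower M
  have hchM : CharP M p := by
    have := charP_of_injective_algebraMap (algebraMap F M).injective p
    exact this
  have hxM' : x ∉ (algebraMap M K).range := by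
    rintro ⟨m, hm⟩
    exact hxM (hm ▸ m.2)
  have htop : M⟮x⟯ = ⊤ := by
    rw [eq_top_iff]
    intro z _
    by_cases hz : z ∈ M
    · exact IntermediateField.algebraMap_mem M⟮x⟯ (⟨z, hz⟩ : M)
    · have hlt : M < (M⟮z⟯).restrictScalars F := by
        refine lt_of_le_of_ne ?_ ?_
        · intro m hm
          exact IntermediateField.algebraMap_mem M⟮z⟯ (⟨m, hm⟩ : M)
        · intro h
          apply hz
          rw [h]
          exact IntermediateField.mem_adjoin_simple_self M z
      have hxz : x ∈ M⟮z⟯ := by
        by_contra hcon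
        have := hM.le_of_ge (y := (M⟮z⟯).restrictScalars F) hcon hlt.le
        exact absurd hlt (not_lt_of_ge this)
      exact exchange hFM hK hxz hxM'
  obtain ⟨D, hD⟩ := exists_derivation_simple hFM hK hxM' htop
  exact ⟨D.restrictScalars F, by simpa using hD⟩

/-- a derivation killing an intermediate field and with value one at a given outside element -/
theorem exists_derivation_field (hF : PowIn F K p) (hK : CharP K p) (E : IntermediateField F K)
    {x : K} (hx : x ∉ E) :
    ∃ D : Derivation F K K, (∀ e ∈ E, D e = 0) ∧ D x = 1 := by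
  have hchM : CharP E p := charP_of_injective_algebraMap (algebraMap F E).injective p
  have hx' : x ∉ (algebraMap E K).range := by
    rintro ⟨m, hm⟩
    exact hx (hm ▸ m.2)
  obtain ⟨D, hD⟩ := exists_derivation (hF.tower E) hK hx'
  exact ⟨D.restrictScalars F, fun e he => D.map_algebraMap (⟨e, he⟩ : E), by simpa using hD⟩

/-- evaluating a derivation at a polynomial expression -/
theorem deriv_aeval (D : Derivation F K K) (x : K) (Q : F[X]) :
    D (aeval x Q) = aeval x (derivative Q) * D x := by
  have := D.map_aeval Q x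
  simpa [smul_eq_mul] using this

end General

end Crest.Agent.H1.Milnor
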