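import Crest.Agent.H1.MilnorA

/-!
Classification of the collinearity-type triples in a purely inseparable exponent-one extension.
-/

set_option autoImplicit false
set_option linter.unusedSectionVars false
set_option linter.unusedVariables false

open Polynomial IntermediateField

namespace Crest.Agent.H1.Milnor

section General

variable {F K : Type*} [Field F] [Field K] [Algebra F K] {p : ℕ} [hp : Fact p.Prime] [CharP F p]

theorem eigen (hF : PowIn F K p) (hK : CharP K p) {x : K} (hx : x ∉ (algebraMap F K).range)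
    (D : Derivation F K K) (hD : D x = 1) {f : K} (hf : f ∈ F⟮x⟯) (hf0 : f ≠ 0) {l : F}
    (hl : x * D f = algebraMap F K l * f) :
    ∃ m : ℕ, m < p ∧ l = (m : F) ∧ ∃ s : F, s ≠ 0 ∧ f = algebraMap F K s * x ^ m := by
  obtain ⟨Q, hQd, rfl⟩ := repr hF hK hf
  have hQ0 : Q ≠ 0 := by rintro rfl; simp at hf0
  rw [deriv_aeval, hD, mul_one] at hl
  have h0 : X * derivative Q - C l * Q = 0 := by
    apply indep hF hK hx
    · refine lt_of_le_of_lt (natDegree_sub_le _ _) (max_lt ?_ ?_)
      · by_cases hc : Q.natDegree = 0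
        · rw [natDegree_eq_zero.1 hc |>.choose_spec.symm]
          simpa using hp.out.pos
        · refine lt_of_le_of_lt (natDegree_mul_le) ?_
          have := natDegree_derivative_le Q
          rw [natDegree_X]
          omega
      · exact lt_of_le_of_lt (natDegree_C_mul_le _ _) hQd
    · rw [map_sub, map_mul, map_mul, aeval_X, aeval_C, hl, sub_self]
  have hcoef : ∀ i : ℕ, (i : F) * Q.coeff i = l * Q.coeff i := by
    intro i
    have h1 := congrArg (fun P => coeff P i) (sub_eq_zero.1 h0)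
    simp only [coeff_C_mul] at h1
    rw [← h1]
    cases i with
    | zero => simp
    | succ i => rw [coeff_X_mul, coeff_derivative]; push_cast; ring
  obtain ⟨m, hm⟩ : ∃ m, Q.coeff m ≠ 0 := by
    by_contra hcon
    push Not at hcon
    exact hQ0 (Polynomial.ext (by simpa using hcon))
  have hmp : m < p := lt_of_le_of_lt (le_natDegree_of_ne_zero hm) hQd
  have hlm : l = (m : F) := (mul_right_cancel₀ hm (hcoef m)).symm
  refine ⟨m, hmp, hlm, Q.coeff m, hm, ?_⟩
  have hQeq : Q = C (Q.coeff m) * X ^ m := by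
    ext i
    rw [coeff_C_mul_X_pow]
    split_ifs with hi
    · rw [hi]
    · by_contra hne
      have hip : i < p := lt_of_le_of_lt (le_natDegree_of_ne_zero hne) hQd
      have h2 : (i : F) = (m : F) := by
        rw [← hlm]; exact mul_right_cancel₀ hne (hcoef i)
      rw [CharP.natCast_eq_natCast F p] at h2
      rw [Nat.ModEq, Nat.mod_eq_of_lt hip, Nat.mod_eq_of_lt hmp] at h2
      exact hi h2
  rw [hQeq]
  simp

theorem D_mem (hF : PowIn F K p) (hK : CharP K p) {x : K}
    (D : Derivation F K K) (hD : D x ∈ F⟮x⟯) {f : K} (hf : f ∈ F⟮x⟯) : D f ∈ F⟮x⟯ := by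
  obtain ⟨Q, _, rfl⟩ := repr hF hK hf
  rw [deriv_aeval]
  refine mul_mem ?_ hD
  have := Polynomial.aeval_mem_adjoin_singleton F x (p := derivative Q)
  exact IntermediateField.algebra_adjoin_le_adjoin F {x} this

theorem D_zero (hF : PowIn F K p) (hK : CharP K p) {x : K}
    (D : Derivation F K K) (hD : D x = 0) {f : K} (hf : f ∈ F⟮x⟯) : D f = 0 := by
  obtain ⟨Q, _, rfl⟩ := repr hF hK hf
  rw [deriv_aeval, hD, mul_zero]

theorem inter (hF : PowIn F K p) (hK : CharP K p) {x y l : K} (hy : y ∉ F⟮x⟯)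
    (hlx : l ∈ F⟮x⟯) (hly : l ∈ F⟮y⟯) : l ∈ (algebraMap F K).range := by
  by_contra hl
  apply hy
  have h1 := exchange hF hK hly hl
  have h2 : F⟮l⟯ ≤ F⟮x⟯ := by rw [IntermediateField.adjoin_simple_le_iff]; exact hlx
  exact h2 h1

theorem not_mem_symm (hF : PowIn F K p) (hK : CharP K p) {x y : K}
    (hx : x ∉ (algebraMap F K).range) (hy : y ∉ F⟮x⟯) : x ∉ F⟮y⟯ := by
  intro h
  exact hy (exchange hF hK h hx)

theorem not_range (hF : PowIn F K p) (hK : CharP K p) {x y : K} (hy : y ∉ F⟮x⟯) :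
    y ∉ (algebraMap F K).range := by
  rintro ⟨c, rfl⟩
  exact hy (IntermediateField.algebraMap_mem _ c)

theorem natCast_inj_of_lt {i m : ℕ} (hi : i < p) (hm : m < p) (h : (i : F) = (m : F)) : i = m := by
  rw [CharP.natCast_eq_natCast F p] at h
  rwa [Nat.ModEq, Nat.mod_eq_of_lt hi, Nat.mod_eq_of_lt hm] at h

theorem D_pow_mul (D : Derivation F K K) (x a : K) (r : ℕ) (hr : 0 < r) :
    x * D (a ^ r) = (r : K) * a ^ (r - 1) * (x * D a) := by
  rw [D.leibniz_pow]
  simp only [nsmul_eq_mul, smul_eq_mul]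
  ring

theorem solve (hF : PowIn F K p) (hK : CharP K p) {x : K} (hx : x ∉ (algebraMap F K).range)
    (D : Derivation F K K) (hD : D x = 1) {a : K} (ha : a ∈ F⟮x⟯) (ha0 : a ≠ 0)
    {m : ℕ} (hm0 : 0 < m) (hmp : m < p) {s : F} (hs : s ≠ 0)
    (hA : (x * D a / a) * (1 + algebraMap F K s * x ^ m) = 1) :
    ∃ e s' : F, e ≠ 0 ∧ s' ≠ 0 ∧
      a ^ (p - m) = algebraMap F K e * (1 + algebraMap F K s' * x ^ (p - m)) := by
  have hx0 : x ≠ 0 := by rintro rfl; exact hx ⟨0, by simp⟩
  have hs' : algebraMap F K s ≠ 0 := by simpa using hs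
  obtain ⟨c, hc⟩ := hF x
  have hc0 : c ≠ 0 := by
    rintro rfl
    rw [map_zero] at hc
    exact hx0 ((pow_eq_zero_iff hp.out.ne_zero).1 hc.symm)
  set A := x * D a / a with hAdef
  set q := algebraMap F K s * x ^ m with hq
  have hq0 : q ≠ 0 := mul_ne_zero hs' (pow_ne_zero _ hx0)
  have hq1 : 1 + q ≠ 0 := by
    intro h; rw [h, mul_zero] at hA; exact zero_ne_one hA
  set s' := s⁻¹ * c⁻¹ with hs'def
  have hs'0 : s' ≠ 0 := mul_ne_zero (inv_ne_zero hs) (inv_ne_zero hc0)
  set r := p - m with hr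
  have hr0 : 0 < r := by omega
  have hxp : x ^ p = x ^ m * x ^ r := by rw [← pow_add]; congr 1; omega
  have hs'q : algebraMap F K s' * x ^ r = q⁻¹ := by
    rw [hs'def, map_mul, map_inv₀, map_inv₀, hc, hxp, hq]
    field_simp
  set w := 1 + algebraMap F K s' * x ^ r with hw
  have hw' : w = (1 + q) / q := by rw [hw, hs'q]; field_simp; ring
  have hw0 : w ≠ 0 := by rw [hw']; exact div_ne_zero hq1 hq0
  have hAeq : A = 1 / (1 + q) := by field_simp; exact hA
  have hDw : x * D w = (r : K) * A * w := by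
    rw [hw, map_add, Derivation.map_one_eq_zero, zero_add, Derivation.leibniz,
      Derivation.map_algebraMap, smul_zero, add_zero, smul_eq_mul,
      Derivation.leibniz_pow, hD]
    simp only [nsmul_eq_mul, smul_eq_mul, mul_one]
    rw [← hw, hw', hAeq]
    have : x * (algebraMap F K s' * ((r : K) * x ^ (r - 1))) = (r : K) * (algebraMap F K s' * x ^ r) := by
      rw [show x ^ r = x ^ (r - 1) * x by rw [← pow_succ]; congr 1; omega]
      ring
    rw [this, hs'q]
    field_simp
  have hDa : x * D (a ^ r) = (r : K) * A * a ^ r := by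
    rw [D_pow_mul D x a r hr0, hAdef]
    rw [show a ^ r = a ^ (r - 1) * a by rw [← pow_succ]; congr 1; omega]
    field_simp
  have hquot : x * D (a ^ r / w) = algebraMap F K 0 * (a ^ r / w) := by
    rw [Derivation.leibniz_div]
    simp only [smul_eq_mul, map_zero, zero_mul]
    have : x * (w⁻¹ ^ 2 * (w * D (a ^ r) - a ^ r * D w)) =
      w⁻¹ ^ 2 * (w * (x * D (a ^ r)) - a ^ r * (x * D w)) := by ring
    rw [this, hDw, hDa]
    ring
  have hwmem : w ∈ F⟮x⟯ := by
    rw [hw]
    exact add_mem (one_mem _) (mul_mem (IntermediateField.algebraMap_mem _ _)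
      (pow_mem (IntermediateField.mem_adjoin_simple_self F x) _))
  obtain ⟨j, hj, hj0, e, he0, he⟩ := eigen hF hK hx D hD
    (div_mem (pow_mem ha r) hwmem) (div_ne_zero (pow_ne_zero _ ha0) hw0) hquot
  have hj1 : j = 0 := natCast_inj_of_lt (F := F) hj hp.out.pos (by rw [← hj0]; simp)
  subst hj1
  refine ⟨e, s', he0, hs'0, ?_⟩
  rw [← hw]
  rw [pow_zero, mul_one] at he
  rw [← he]
  field_simp

theorem unique_r (hF : PowIn F K p) (hK : CharP K p) {x : K} (hx : x ∉ (algebraMap F K).range)
    {a : K} (ha0 : a ≠ 0)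
    {r r₁ : ℕ} (hr0 : 0 < r) (hrp : r < p) (hr1 : 0 < r₁) (hr1p : r₁ < p)
    {e s e₁ s₁ : F} (he : e ≠ 0) (hs : s ≠ 0) (he1 : e₁ ≠ 0) (hs1 : s₁ ≠ 0)
    (h : a ^ r = algebraMap F K e * (1 + algebraMap F K s * x ^ r))
    (h1 : a ^ r₁ = algebraMap F K e₁ * (1 + algebraMap F K s₁ * x ^ r₁)) : r = r₁ := by
  obtain ⟨D, hD⟩ := exists_derivation hF hK hx
  have key : ∀ (r : ℕ) (hr0 : 0 < r) (hrp : r < p) (e s : F) (he : e ≠ 0) (hs : s ≠ 0)
      (h : a ^ r = algebraMap F K e * (1 + algebraMap F K s * x ^ r)),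
      (x * D a / a) * (1 + algebraMap F K s * x ^ r) = algebraMap F K s * x ^ r := by
    intro r hr0 hrp e s he hs h
    have hrK : (r : K) ≠ 0 := by
      intro h0
      rw [CharP.cast_eq_zero_iff K p] at h0
      exact absurd (Nat.le_of_dvd hr0 h0) (by omega)
    have he' : algebraMap F K e ≠ 0 := by simpa using he
    have h3 : x * D (a ^ r) = x * D (algebraMap F K e * (1 + algebraMap F K s * x ^ r)) := by
      rw [h]
    rw [D_pow_mul D x a r hr0, Derivation.leibniz, Derivation.map_algebraMap, smul_zero, add_zero,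
      smul_eq_mul, map_add, Derivation.map_one_eq_zero, zero_add, Derivation.leibniz,
      Derivation.map_algebraMap, smul_zero, add_zero, smul_eq_mul,
      Derivation.leibniz_pow, hD] at h3
    simp only [nsmul_eq_mul, smul_eq_mul, mul_one] at h3
    have h4 : x * (algebraMap F K e * (algebraMap F K s * ((r : K) * x ^ (r - 1)))) =
        algebraMap F K e * ((r : K) * (algebraMap F K s * x ^ r)) := by
      rw [show x ^ r = x ^ (r - 1) * x by rw [← pow_succ]; congr 1; omega]
      ring
    rw [h4] at h3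
    have h5 : (r : K) * a ^ (r - 1) * (x * D a) = (r : K) * a ^ r * (x * D a / a) := by
      rw [show a ^ r = a ^ (r - 1) * a by rw [← pow_succ]; congr 1; omega]
      field_simp
    rw [h5, h] at h3
    have h6 : algebraMap F K e * (r : K) ≠ 0 := mul_ne_zero he' hrK
    apply mul_left_cancel₀ h6
    linear_combination h3
  have k1 := key r hr0 hrp e s he hs h
  have k2 := key r₁ hr1 hr1p e₁ s₁ he1 hs1 h1
  set A := x * D a / a
  have hA1 : 1 - A ≠ 0 := by
    intro h0
    have : A = 1 := (sub_eq_zero.1 h0).symm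
    rw [this, one_mul] at k1
    have : (1 : K) = 0 := by linear_combination k1
    exact one_ne_zero this
  have h7 : algebraMap F K s * x ^ r = algebraMap F K s₁ * x ^ r₁ := by
    apply mul_right_cancel₀ hA1
    linear_combination (-1 : K) * k1 + k2
  by_contra hne
  have h8 : C s * X ^ r - C s₁ * X ^ r₁ = (0 : F[X]) := by
    apply indep hF hK hx
    · refine lt_of_le_of_lt (natDegree_sub_le _ _) (max_lt ?_ ?_)
      · exact lt_of_le_of_lt (natDegree_C_mul_X_pow_le _ _) hrp
      · exact lt_of_le_of_lt (natDegree_C_mul_X_pow_le _ _) hr1p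
    · simp [h7]
  have h9 := congrArg (fun P => coeff P r) h8
  simp only [coeff_sub, coeff_C_mul_X_pow, if_neg hne, if_true, sub_zero, coeff_zero] at h9
  exact hs h9

/-- the main classification -/
theorem classify (hF : PowIn F K p) (hK : CharP K p) {x y a b g : K}
    (hx : x ∉ (algebraMap F K).range) (hy : y ∉ F⟮x⟯)
    (ha : a ∈ F⟮x⟯) (haF : a ∉ (algebraMap F K).range) (haF' : a / x ∉ (algebraMap F K).range)
    (hb : b ∈ F⟮y⟯) (hbF : b ∉ (algebraMap F K).range) (hbF' : b / y ∉ (algebraMap F K).range)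
    (hg : g ∈ F⟮x / y⟯) (hg0 : g ≠ 0) (hdep : y * g / b ∈ F⟮a / b⟯) :
    (∃ j < p, ∃ j' < p, ∃ e e' : F, a = algebraMap F K e * x ^ j ∧ b = algebraMap F K e' * y ^ j') ∨
    ∃ r, 0 < r ∧ r < p ∧ ∃ e s e' t : F, e ≠ 0 ∧ s ≠ 0 ∧ e' ≠ 0 ∧ t ≠ 0 ∧
      a ^ r = algebraMap F K e * (1 + algebraMap F K s * x ^ r) ∧
      b ^ r = algebraMap F K e' * (1 + algebraMap F K t * y ^ r) := by
  have hx' := not_mem_symm hF hK hx hy
  have hyF := not_range hF hK hy
  have hx0 : x ≠ 0 := by rintro rfl; exact hx ⟨0, by simp⟩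
  have hy0 : y ≠ 0 := by rintro rfl; exact hyF ⟨0, by simp⟩
  have ha0 : a ≠ 0 := by rintro rfl; exact haF ⟨0, by simp⟩
  have hb0 : b ≠ 0 := by rintro rfl; exact hbF ⟨0, by simp⟩
  obtain ⟨D1, hD1, hD1x⟩ := exists_derivation_field hF hK F⟮y⟯ hx'
  obtain ⟨D2, hD2, hD2y⟩ := exists_derivation_field hF hK F⟮x⟯ hy
  have hD1y : D1 y = 0 := hD1 y (IntermediateField.mem_adjoin_simple_self F y)
  have hD2x : D2 x = 0 := hD2 x (IntermediateField.mem_adjoin_simple_self F x)
  set T : Derivation F K K := x • D1 + y • D2 with hT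
  have hTapp : ∀ w, T w = x * D1 w + y * D2 w := fun w => by
    simp [hT, smul_eq_mul]
  set z := x / y with hz
  have hTz : T z = 0 := by
    rw [hTapp, hz, Derivation.leibniz_div, Derivation.leibniz_div, hD1x, hD1y, hD2x, hD2y]
    simp only [smul_eq_mul]
    field_simp
    ring
  set c := y * g with hc
  have hc0 : c ≠ 0 := mul_ne_zero hy0 hg0
  have hTg : T g = 0 := D_zero hF hK T hTz hg
  have hTc : T c = c := by
    rw [hc, Derivation.leibniz, hTg, hTapp, hD1y, hD2y]
    simp only [smul_eq_mul]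
    ring
  set A := x * D1 a / a with hA
  set B := y * D2 b / b with hB
  set u := x * D1 c / c with hu
  set v := y * D2 c / c with hv
  have huv : u + v = 1 := by
    rw [hu, hv, ← add_div, ← hTapp, hTc, div_self hc0]
  -- dependency relation
  have hdep2 : D1 (a / b) * D2 (c / b) = D2 (a / b) * D1 (c / b) := by
    obtain ⟨Q, _, hQ⟩ := repr hF hK hdep
    rw [← hQ, deriv_aeval, deriv_aeval]
    ring
  have hD1b : D1 b = 0 := hD1 b hb
  have hD2a : D2 a = 0 := hD2 a ha
  have hrel : A * (v - B) = - (B * u) := by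
    rw [Derivation.leibniz_div, Derivation.leibniz_div, Derivation.leibniz_div,
      Derivation.leibniz_div, hD1b, hD2a] at hdep2
    simp only [smul_eq_mul, mul_zero, sub_zero, zero_sub] at hdep2
    rw [hA, hB, hu, hv]
    have hb3 : b ≠ 0 := hb0
    field_simp at hdep2 ⊢
    linear_combination hdep2
  have hAne0 : A ≠ 0 := by
    intro h0
    have : x * D1 a = algebraMap F K 0 * a := by
      rw [map_zero, zero_mul]
      have : x * D1 a = A * a := by rw [hA]; field_simp
      rw [this, h0, zero_mul]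
    obtain ⟨m, hm, hm0, s, _, hs⟩ := eigen hF hK hx D1 hD1x ha ha0 this
    have hj1 : m = 0 := natCast_inj_of_lt (F := F) hm hp.out.pos (by rw [← hm0]; simp)
    subst hj1
    exact haF ⟨s, by rw [hs, pow_zero, mul_one]⟩
  have hAne1 : A ≠ 1 := by
    intro h0
    have : x * D1 a = algebraMap F K 1 * a := by
      rw [map_one]
      have : x * D1 a = A * a := by rw [hA]; field_simp
      rw [this, h0]
    obtain ⟨m, hm, hm0, s, _, hs⟩ := eigen hF hK hx D1 hD1x ha ha0 this
    have hj1 : m = 1 := natCast_inj_of_lt (F := F) hm hp.out.one_lt (by rw [← hm0]; simp)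
    subst hj1
    exact haF' ⟨s, by rw [hs, pow_one]; field_simp⟩
  have hBne0 : B ≠ 0 := by
    intro h0
    have : y * D2 b = algebraMap F K 0 * b := by
      rw [map_zero, zero_mul]
      have : y * D2 b = B * b := by rw [hB]; field_simp
      rw [this, h0, zero_mul]
    obtain ⟨m, hm, hm0, s, _, hs⟩ := eigen hF hK hyF D2 hD2y hb hb0 this
    have hj1 : m = 0 := natCast_inj_of_lt (F := F) hm hp.out.pos (by rw [← hm0]; simp)
    subst hj1
    exact hbF ⟨s, by rw [hs, pow_zero, mul_one]⟩
  have hBne1 : B ≠ 1 := by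
    intro h0
    have : y * D2 b = algebraMap F K 1 * b := by
      rw [map_one]
      have : y * D2 b = B * b := by rw [hB]; field_simp
      rw [this, h0]
    obtain ⟨m, hm, hm0, s, _, hs⟩ := eigen hF hK hyF D2 hD2y hb hb0 this
    have hj1 : m = 1 := natCast_inj_of_lt (F := F) hm hp.out.one_lt (by rw [← hm0]; simp)
    subst hj1
    exact hbF' ⟨s, by rw [hs, pow_one]; field_simp⟩
  have h1 : u * (A - B) = A * (1 - B) := by
    have : v = 1 - u := by linear_combination huv
    rw [this] at hrel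
    linear_combination (-1 : K) * hrel
  have h2 : (1 - u) * (A - B) = - (B * (1 - A)) := by linear_combination (-1 : K) * h1
  have hAB : A - B ≠ 0 := by
    intro h0
    rw [h0, mul_zero] at h1
    rcases mul_eq_zero.1 h1.symm with h | h
    · exact hAne0 h
    · exact hBne1 (sub_eq_zero.1 h).symm
  have hu0 : u ≠ 0 := by
    intro h0
    rw [h0, zero_mul] at h1
    rcases mul_eq_zero.1 h1.symm with h | h
    · exact hAne0 h
    · exact hBne1 (sub_eq_zero.1 h).symm
  set f := (1 - A) / A with hf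
  set k := (1 - B) / B with hk
  have hf0 : f ≠ 0 := div_ne_zero (fun h => hAne1 (sub_eq_zero.1 h).symm) hAne0
  have hk0 : k ≠ 0 := div_ne_zero (fun h => hBne1 (sub_eq_zero.1 h).symm) hBne0
  have hfk : f / k = - ((1 - u) / u) := by
    have hB1 : 1 - B ≠ 0 := fun h => hBne1 (sub_eq_zero.1 h).symm
    rw [hf, hk]
    field_simp
    have h3 : (A - B) * ((1 - A) * B * u) = (A - B) * (-(A * (1 - B) * (1 - u))) := by
      linear_combination (1 - A) * B * h1 + A * (1 - B) * h2
    linear_combination mul_left_cancel₀ hAB h3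
  -- memberships
  have hxmem := IntermediateField.mem_adjoin_simple_self F x
  have hymem := IntermediateField.mem_adjoin_simple_self F y
  have hzmem := IntermediateField.mem_adjoin_simple_self F z
  have hAmem : A ∈ F⟮x⟯ := div_mem (mul_mem hxmem
    (D_mem hF hK D1 (by rw [hD1x]; exact one_mem _) ha)) ha
  have hBmem : B ∈ F⟮y⟯ := div_mem (mul_mem hymem
    (D_mem hF hK D2 (by rw [hD2y]; exact one_mem _) hb)) hb
  have hfmem : f ∈ F⟮x⟯ := div_mem (sub_mem (one_mem _) hAmem) hAmem
  have hkmem : k ∈ F⟮y⟯ := div_mem (sub_mem (one_mem _) hBmem) hBmem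
  have humem : u ∈ F⟮z⟯ := by
    obtain ⟨Q, _, hQ⟩ := repr hF hK hg
    have h5 : D1 g = aeval z (derivative Q) * D1 z := by rw [← hQ, deriv_aeval]
    have h6 : D1 z = 1 / y := by
      rw [hz, Derivation.leibniz_div, hD1x, hD1y]
      simp only [smul_eq_mul]
      field_simp
      ring
    have h7 : u = z * aeval z (derivative Q) / g := by
      rw [hu, hc, Derivation.leibniz, hD1y, h5, h6]
      simp only [smul_eq_mul]
      rw [hz]
      field_simp
      ring
    rw [h7]
    refine div_mem (mul_mem hzmem ?_) hg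
    have := Polynomial.aeval_mem_adjoin_singleton F z (p := derivative Q)
    exact IntermediateField.algebra_adjoin_le_adjoin F {z} this
  have hTfk : T (f / k) = 0 := by
    apply D_zero hF hK T hTz
    rw [hfk]
    exact neg_mem (div_mem (sub_mem (one_mem _) humem) humem)
  have hD2f : D2 f = 0 := hD2 f hfmem
  have hD1k : D1 k = 0 := hD1 k hkmem
  have hlam : x * D1 f / f = y * D2 k / k := by
    rw [Derivation.leibniz_div, hTapp, hTapp, hD2f, hD1k] at hTfk
    simp only [smul_eq_mul, mul_zero, add_zero, zero_add] at hTfk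
    have h8 : k * (x * D1 f) - f * (y * D2 k) = 0 := by
      rcases mul_eq_zero.1 hTfk with h | h
      · exact absurd h (pow_ne_zero _ (inv_ne_zero hk0))
      · exact h
    field_simp
    linear_combination h8
  have hlmem : x * D1 f / f ∈ (algebraMap F K).range := by
    apply inter hF hK hy
    · exact div_mem (mul_mem hxmem (D_mem hF hK D1 (by rw [hD1x]; exact one_mem _) hfmem)) hfmem
    · rw [hlam]
      exact div_mem (mul_mem hymem (D_mem hF hK D2 (by rw [hD2y]; exact one_mem _) hkmem)) hkmem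
  obtain ⟨l, hl⟩ := hlmem
  obtain ⟨m, hm, hlm, s, hs0, hs⟩ := eigen hF hK hx D1 hD1x hfmem hf0 (l := l)
    (by rw [hl]; field_simp)
  obtain ⟨m', hm', hlm', t, ht0, ht⟩ := eigen hF hK hyF D2 hD2y hkmem hk0 (l := l)
    (by rw [hl, hlam]; field_simp)
  have hmm : m = m' := natCast_inj_of_lt (F := F) hm hm' (by rw [← hlm, ← hlm'])
  subst hmm
  have hA1 : A * (1 + algebraMap F K s * x ^ m) = 1 := by
    rw [← hs, hf]
    field_simp
    ring
  have hB1 : B * (1 + algebraMap F K t * y ^ m) = 1 := by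
    rw [← ht, hk]
    field_simp
    ring
  rcases Nat.eq_zero_or_pos m with hm0 | hm0
  · left
    subst hm0
    have hs1 : (1 + s : F) ≠ 0 := by
      intro h0
      rw [pow_zero, mul_one] at hA1
      have : (1 + algebraMap F K s : K) = 0 := by
        rw [← map_one (algebraMap F K), ← map_add, h0, map_zero]
      rw [this, mul_zero] at hA1
      exact zero_ne_one hA1
    have ht1 : (1 + t : F) ≠ 0 := by
      intro h0
      rw [pow_zero, mul_one] at hB1
      have : (1 + algebraMap F K t : K) = 0 := by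
        rw [← map_one (algebraMap F K), ← map_add, h0, map_zero]
      rw [this, mul_zero] at hB1
      exact zero_ne_one hB1
    obtain ⟨j, hj, _, e, _, he⟩ := eigen hF hK hx D1 hD1x ha ha0 (l := (1 + s)⁻¹) (by
      rw [map_inv₀, map_add, map_one]
      have h10 : (1 + algebraMap F K s : K) ≠ 0 := by
        rw [← map_one (algebraMap F K), ← map_add]; exact (map_ne_zero (algebraMap F K)).2 hs1
      rw [pow_zero, mul_one] at hA1
      have h11 : A = (1 + algebraMap F K s)⁻¹ := eq_inv_of_mul_eq_one_left hA1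
      rw [← h11, hA]
      field_simp)
    obtain ⟨j', hj', _, e', _, he'⟩ := eigen hF hK hyF D2 hD2y hb hb0 (l := (1 + t)⁻¹) (by
      rw [map_inv₀, map_add, map_one]
      rw [pow_zero, mul_one] at hB1
      have h11 : B = (1 + algebraMap F K t)⁻¹ := eq_inv_of_mul_eq_one_left hB1
      rw [← h11, hB]
      field_simp)
    exact ⟨j, hj, j', hj', e, e', he, he'⟩
  · right
    obtain ⟨e, s', he, hs', h12⟩ := solve hF hK hx D1 hD1x ha ha0 hm0 hm hs0 hA1
    obtain ⟨e', t', he', ht', h13⟩ := solve hF hK hyF D2 hD2y hb hb0 hm0 hm ht0 hB1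
    exact ⟨p - m, by omega, by omega, e, s', e', t', he, hs', he', ht', h12, h13⟩

end General

end Crest.Agent.H1.Milnor
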