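import Crest.Prelude.Def_MilnorK
import Crest.Agent.H1.MilnorB

/-!
The first Milnor K-group modulo `p` in characteristic `p`, the Steinberg relation, and
compatible isomorphisms.
-/

set_option autoImplicit false
set_option linter.unusedSectionVars false
set_option linter.unusedVariables false

open Polynomial IntermediateField Crest.NumberTheoryR.MilnorK
open scoped TensorProduct

namespace Crest.Agent.H1.Milnor

section Basics

variable (K : Type*) [Field K] (p : ℕ) [hp : Fact p.Prime] [hK : CharP K p]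

/-- the subfield of `p`-th powers -/
abbrev FF : Subfield K := (frobenius K p).fieldRange

instance : CharP (FF K p) p := (algebraMap (FF K p) K).charP (algebraMap (FF K p) K).injective p

theorem powIn : PowIn (FF K p) K p := fun a => ⟨⟨a ^ p, ⟨a, by simp [frobenius_def]⟩⟩, rfl⟩

variable {K}

theorem mem_rangeF {a : K} : a ∈ (algebraMap (FF K p) K).range ↔ ∃ c : K, c ^ p = a := by
  constructor
  · rintro ⟨⟨_, ⟨c, rfl⟩⟩, rfl⟩
    exact ⟨c, rfl⟩
  · rintro ⟨c, rfl⟩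
    exact ⟨⟨c ^ p, ⟨c, by simp [frobenius_def]⟩⟩, rfl⟩

/-- the class of an element, zero being sent to zero -/
noncomputable def cl (x : K) : KOne K p := by
  classical exact if h : x = 0 then 0 else cls K p (Units.mk0 x h)

variable {p}

theorem cl_of_ne {x : K} (h : x ≠ 0) : cl p x = cls K p (Units.mk0 x h) := by
  unfold cl; rw [dif_neg h]

theorem cls_mul (u v : Kˣ) : cls K p (u * v) = cls K p u + cls K p v := by
  unfold cls
  rw [ofMul_mul]; rfl

theorem cls_eq_zero {u : Kˣ} : cls K p u = 0 ↔ ∃ v : Kˣ, v ^ p = u := by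
  unfold cls
  rw [QuotientAddGroup.eq_zero_iff]
  unfold pMultiples
  constructor
  · rintro ⟨v, hv⟩
    exact ⟨Additive.toMul v, by simpa using congrArg Additive.toMul hv⟩
  · rintro ⟨v, rfl⟩
    exact ⟨Additive.ofMul v, by simp⟩

theorem cl_mul {x y : K} (hx : x ≠ 0) (hy : y ≠ 0) : cl p (x * y) = cl p x + cl p y := by
  rw [cl_of_ne hx, cl_of_ne hy, cl_of_ne (mul_ne_zero hx hy), ← cls_mul]
  congr 1
  ext; simp

theorem cl_eq_zero {x : K} (hx : x ≠ 0) : cl p x = 0 ↔ x ∈ (algebraMap (FF K p) K).range := by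
  rw [cl_of_ne hx, cls_eq_zero, mem_rangeF]
  constructor
  · rintro ⟨v, hv⟩
    exact ⟨v, by simpa using congrArg Units.val hv⟩
  · rintro ⟨c, hc⟩
    have hc0 : c ≠ 0 := by
      rintro rfl
      rw [zero_pow hp.out.ne_zero] at hc
      exact hx hc.symm
    exact ⟨Units.mk0 c hc0, by ext; simpa using hc⟩

theorem cl_one : cl p (1 : K) = 0 := (cl_eq_zero one_ne_zero).2 ⟨1, by simp⟩

theorem cl_algebraMap (a : FF K p) : cl p (algebraMap (FF K p) K a) = 0 := by
  by_cases h : (algebraMap (FF K p) K a) = 0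
  · unfold cl; rw [dif_pos h]
  · exact (cl_eq_zero h).2 ⟨a, rfl⟩

theorem cl_inv {x : K} (hx : x ≠ 0) : cl p x⁻¹ = - cl p x := by
  have := cl_mul (p := p) hx (inv_ne_zero hx)
  rw [mul_inv_cancel₀ hx, cl_one] at this
  exact (neg_eq_of_add_eq_zero_right this.symm).symm

theorem cl_div {x y : K} (hx : x ≠ 0) (hy : y ≠ 0) : cl p (x / y) = cl p x - cl p y := by
  rw [div_eq_mul_inv, cl_mul hx (inv_ne_zero hy), cl_inv hy, sub_eq_add_neg]

theorem cl_pow {x : K} (hx : x ≠ 0) (n : ℕ) : cl p (x ^ n) = n • cl p x := by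
  induction n with
  | zero => simp [cl_one]
  | succ n ih => rw [pow_succ, cl_mul (pow_ne_zero _ hx) hx, ih, succ_nsmul]

theorem cl_smul {x : K} (hx : x ≠ 0) {a : FF K p} (ha : a ≠ 0) :
    cl p (algebraMap (FF K p) K a * x) = cl p x := by
  rw [cl_mul ((_root_.map_ne_zero _).2 ha) hx, cl_algebraMap]
  exact zero_add (cl p x)

theorem cl_surj (u : KOne K p) : ∃ x : K, x ≠ 0 ∧ cl p x = u := by
  obtain ⟨v, rfl⟩ := QuotientAddGroup.mk_surjective u
  refine ⟨((Additive.toMul v : Kˣ) : K), Units.ne_zero _, ?_⟩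
  rw [cl_of_ne (Units.ne_zero _)]
  unfold cls
  congr 1
  simp

theorem cl_eq_iff {x y : K} (hx : x ≠ 0) (hy : y ≠ 0) :
    cl p x = cl p y ↔ ∃ a : FF K p, a ≠ 0 ∧ x = algebraMap (FF K p) K a * y := by
  rw [← sub_eq_zero, ← cl_div hx hy, cl_eq_zero (div_ne_zero hx hy)]
  constructor
  · rintro ⟨a, ha⟩
    refine ⟨a, ?_, ?_⟩
    · rintro rfl
      rw [map_zero] at ha
      exact div_ne_zero hx hy ha.symm
    · rw [ha]; field_simp
  · rintro ⟨a, _, rfl⟩
    exact ⟨a, by field_simp⟩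

theorem neg_one_mem : (-1 : K) ∈ (algebraMap (FF K p) K).range := ⟨-1, by simp⟩

/-- the Steinberg relation along a line -/
theorem ste_line {x : K} (hx : x ≠ 0) {s : FF K p} (hs : s ≠ 0)
    (h1 : 1 + algebraMap (FF K p) K s * x ≠ 0) :
    cl p x ⊗ₜ[ZMod p] cl p (1 + algebraMap (FF K p) K s * x) ∈ steinberg K p := by
  apply Submodule.subset_span
  have hs' : algebraMap (FF K p) K (-s) ≠ 0 := by simpa using hs
  have hf : algebraMap (FF K p) K (-s) * x ≠ 0 := mul_ne_zero hs' hx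
  have h1f : 1 - algebraMap (FF K p) K (-s) * x ≠ 0 := by simpa using h1
  refine ⟨algebraMap (FF K p) K (-s) * x, hf, h1f, ?_⟩
  rw [← cl_of_ne hf, ← cl_of_ne h1f, cl_smul hx (neg_ne_zero.2 hs)]
  congr 2
  simp

/-- logarithmic derivative on the first Milnor K-group -/
noncomputable def dlog (D : Derivation (FF K p) K K) : KOne K p →+ K :=
  QuotientAddGroup.lift (pMultiples K p)
    { toFun := fun u => D ((Additive.toMul u : Kˣ) : K) / ((Additive.toMul u : Kˣ) : K)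
      map_zero' := by simp
      map_add' := fun u v => by
        rw [toMul_add, Units.val_mul, Derivation.leibniz]
        simp only [smul_eq_mul]
        field_simp
        ring }
    (by
      rintro _ ⟨v, rfl⟩
      simp only [nsmulAddMonoidHom_apply, AddMonoidHom.mem_ker, AddMonoidHom.coe_mk, ZeroHom.coe_mk,
        toMul_nsmul, Units.val_pow_eq_pow_val]
      rw [Derivation.leibniz_pow]
      have : ((p : ℕ) : K) = 0 := CharP.cast_eq_zero K p
      simp [this])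

theorem dlog_cl (D : Derivation (FF K p) K K) {x : K} (hx : x ≠ 0) : dlog D (cl p x) = D x / x := by
  rw [cl_of_ne hx]
  rfl

theorem ste_dep {x y : K} (hx : x ∉ (algebraMap (FF K p) K).range) (hy0 : y ≠ 0)
    (h : cl p x ⊗ₜ[ZMod p] cl p y ∈ steinberg K p) : y ∈ (FF K p)⟮x⟯ := by
  by_contra hy
  have hF := powIn K p
  have hx0 : x ≠ 0 := by rintro rfl; exact hx ⟨0, by simp⟩
  have hx' := not_mem_symm hF hK hx hy
  obtain ⟨D1, hD1, hD1x⟩ := exists_derivation_field hF hK (FF K p)⟮y⟯ hx'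
  obtain ⟨D2, hD2, hD2y⟩ := exists_derivation_field hF hK (FF K p)⟮x⟯ hy
  have hD1y : D1 y = 0 := hD1 y (IntermediateField.mem_adjoin_simple_self _ y)
  have hD2x : D2 x = 0 := hD2 x (IntermediateField.mem_adjoin_simple_self _ x)
  let _ : Algebra (ZMod p) K := ZMod.algebra K p
  let d1 : KOne K p →ₗ[ZMod p] K := (dlog D1).toZModLinearMap p
  let d2 : KOne K p →ₗ[ZMod p] K := (dlog D2).toZModLinearMap p
  let B : (KOne K p ⊗[ZMod p] KOne K p) →ₗ[ZMod p] K :=
    (LinearMap.mul' (ZMod p) K).comp (TensorProduct.map d1 d2) -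
      (LinearMap.mul' (ZMod p) K).comp (TensorProduct.map d2 d1)
  have hB : ∀ a b : K, a ≠ 0 → b ≠ 0 → B (cl p a ⊗ₜ[ZMod p] cl p b) =
      D1 a / a * (D2 b / b) - D2 a / a * (D1 b / b) := by
    intro a b ha hb
    have h1 : ∀ (c : K), c ≠ 0 → d1 (cl p c) = D1 c / c := fun c hc => dlog_cl D1 hc
    have h2 : ∀ (c : K), c ≠ 0 → d2 (cl p c) = D2 c / c := fun c hc => dlog_cl D2 hc
    simp only [B, LinearMap.sub_apply, LinearMap.comp_apply, TensorProduct.map_tmul,
      LinearMap.mul'_apply, h1 a ha, h1 b hb, h2 a ha, h2 b hb]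
  have hker : steinberg K p ≤ LinearMap.ker B := by
    unfold steinberg
    rw [Submodule.span_le]
    rintro _ ⟨f, hf, hf1, rfl⟩
    rw [← cl_of_ne hf, ← cl_of_ne hf1]
    change B _ = 0
    rw [hB f (1 - f) hf hf1]
    simp only [map_sub, Derivation.map_one_eq_zero, zero_sub]
    field_simp
    ring
  have h3 : B (cl p x ⊗ₜ[ZMod p] cl p y) = 0 := hker h
  rw [hB x y hx0 hy0, hD1x, hD2y, hD2x, hD1y] at h3
  simp at h3
  tauto

end Basics

section Theta

variable {K L : Type*} [Field K] [Field L] {p : ℕ} [hp : Fact p.Prime] [hK : CharP K p]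
  [hL : CharP L p]

theorem compat_mem {Θ : KOne K p ≃ₗ[ZMod p] KOne L p} (hΘ : IsCompatible Θ) {u v : KOne K p}
    (h : u ⊗ₜ[ZMod p] v ∈ steinberg K p) : Θ u ⊗ₜ[ZMod p] Θ v ∈ steinberg L p := by
  unfold IsCompatible at hΘ
  rw [← hΘ]
  exact ⟨_, h, by simp⟩

theorem compat_symm {Θ : KOne K p ≃ₗ[ZMod p] KOne L p} (hΘ : IsCompatible Θ) :
    IsCompatible Θ.symm := by
  unfold IsCompatible at hΘ ⊢
  rw [← hΘ, ← Submodule.map_comp, ← TensorProduct.map_comp]
  have : Θ.symm.toLinearMap ∘ₗ Θ.toLinearMap = LinearMap.id := by ext; simp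
  rw [this, TensorProduct.map_id, Submodule.map_id]

/-- the preimage of an intermediate field under a compatible isomorphism -/
noncomputable def preField {Θ : KOne K p ≃ₗ[ZMod p] KOne L p} (hΘ : IsCompatible Θ)
    (E : IntermediateField (FF L p) L) : IntermediateField (FF K p) K where
  carrier := {w | w = 0 ∨ ∃ w' ∈ E, w' ≠ 0 ∧ cl p w' = Θ (cl p w)}
  mul_mem' := by
    rintro a b (rfl | ⟨a', ha', ha0, ha⟩) hb
    · left; simp
    rcases hb with (rfl | ⟨b', hb', hb0, hb⟩)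
    · left; simp
    by_cases ha1 : a = 0
    · left; rw [ha1, zero_mul]
    by_cases hb1 : b = 0
    · left; rw [hb1, mul_zero]
    right
    exact ⟨a' * b', mul_mem ha' hb', mul_ne_zero ha0 hb0, by
      rw [cl_mul ha0 hb0, ha, hb, cl_mul ha1 hb1, map_add]⟩
  one_mem' := Or.inr ⟨1, one_mem _, one_ne_zero, by rw [cl_one, cl_one, map_zero]⟩
  zero_mem' := Or.inl rfl
  add_mem' := by
    rintro a b (rfl | ⟨a', ha', ha0, ha⟩) hb
    · simpa using hb
    rcases hb with (rfl | ⟨b', hb', hb0, hb⟩)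
    · right; exact ⟨a', ha', ha0, by simpa using ha⟩
    by_cases ha1 : a = 0
    · right; rw [ha1, zero_add]; exact ⟨b', hb', hb0, hb⟩
    by_cases hb1 : b = 0
    · right; rw [hb1, add_zero]; exact ⟨a', ha', ha0, ha⟩
    by_cases hab : a + b = 0
    · left; exact hab
    right
    by_cases hq : a / b ∈ (algebraMap (FF K p) K).range
    · obtain ⟨c, hc⟩ := hq
      refine ⟨b', hb', hb0, ?_⟩
      have h1 : a + b = algebraMap (FF K p) K (c + 1) * b := by
        rw [map_add, hc, map_one]; field_simp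
      have hc1 : c + 1 ≠ 0 := by
        intro h0; rw [h0, map_zero, zero_mul] at h1; exact hab h1
      rw [h1, cl_smul hb1 hc1, hb]
    · have hw0 : a / b ≠ 0 := div_ne_zero ha1 hb1
      have h1 : a + b = b * (1 + algebraMap (FF K p) K 1 * (a / b)) := by
        rw [map_one]; field_simp; ring
      have h10 : 1 + algebraMap (FF K p) K 1 * (a / b) ≠ 0 := by
        intro h0; rw [h0, mul_zero] at h1; exact hab h1
      have h2 := compat_mem hΘ (ste_line (p := p) hw0 (s := 1) one_ne_zero h10)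
      obtain ⟨z, hz0, hz⟩ := cl_surj (Θ (cl p (1 + algebraMap (FF K p) K 1 * (a / b))))
      have h3 : cl p (a' / b') = Θ (cl p (a / b)) := by
        rw [cl_div ha0 hb0, ha, hb, cl_div ha1 hb1, map_sub]
      rw [← hz, ← h3] at h2
      have h4 : a' / b' ∉ (algebraMap (FF L p) L).range := by
        rw [← cl_eq_zero (div_ne_zero ha0 hb0), h3]
        intro h5
        rw [LinearEquiv.map_eq_zero_iff, cl_eq_zero hw0] at h5
        exact hq h5
      have h5 := ste_dep h4 hz0 h2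
      have h6 : (FF L p)⟮a' / b'⟯ ≤ E := by
        rw [IntermediateField.adjoin_simple_le_iff]; exact div_mem ha' hb'
      refine ⟨b' * z, mul_mem hb' (h6 h5), mul_ne_zero hb0 hz0, ?_⟩
      rw [h1, cl_mul hb0 hz0, cl_mul hb1 h10, map_add, hb, hz]
  algebraMap_mem' := by
    intro r
    by_cases h : algebraMap (FF K p) K r = 0
    · left; exact h
    · right; exact ⟨1, one_mem _, one_ne_zero, by rw [cl_one, cl_algebraMap, map_zero]⟩
  inv_mem' := by
    rintro a (rfl | ⟨a', ha', ha0, ha⟩)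
    · left; simp
    by_cases ha1 : a = 0
    · left; rw [ha1, inv_zero]
    right
    exact ⟨a'⁻¹, inv_mem ha', inv_ne_zero ha0, by rw [cl_inv ha0, ha, cl_inv ha1, map_neg]⟩

theorem mem_of_cl_eq {E : IntermediateField (FF L p) L} {a b : L} (ha : a ∈ E) (ha0 : a ≠ 0)
    (hb0 : b ≠ 0) (h : cl p b = cl p a) : b ∈ E := by
  obtain ⟨c, _, rfl⟩ := (cl_eq_iff hb0 ha0).1 h
  exact mul_mem (IntermediateField.algebraMap_mem _ _) ha

theorem adj {Θ : KOne K p ≃ₗ[ZMod p] KOne L p} (hΘ : IsCompatible Θ) {x y : K}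
    (hy0 : y ≠ 0) (hy : y ∈ (FF K p)⟮x⟯) {x' y' : L} (hx0' : x' ≠ 0) (hy0' : y' ≠ 0)
    (hx' : cl p x' = Θ (cl p x)) (hy' : cl p y' = Θ (cl p y)) : y' ∈ (FF L p)⟮x'⟯ := by
  have h1 : (FF K p)⟮x⟯ ≤ preField hΘ (FF L p)⟮x'⟯ := by
    rw [IntermediateField.adjoin_simple_le_iff]
    exact Or.inr ⟨x', IntermediateField.mem_adjoin_simple_self _ _, hx0', hx'⟩
  rcases h1 hy with h | ⟨w, hw, hw0, hw1⟩
  · exact absurd h hy0
  · exact mem_of_cl_eq hw hw0 hy0' (by rw [hy', hw1])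

theorem theta_sub (Θ : KOne K p ≃ₗ[ZMod p] KOne L p) (x y : K) :
    Θ (cl p x) - Θ (cl p y) = Θ (cl p x - cl p y) := (map_sub Θ _ _).symm

/-- line preservation -/
def LP (Θ : KOne K p ≃ₗ[ZMod p] KOne L p) : Prop :=
  ∀ x : K, x ∉ (algebraMap (FF K p) K).range → ∀ s : FF K p, s ≠ 0 →
    ∀ x' : L, x' ≠ 0 → cl p x' = Θ (cl p x) → ∃ s' : FF L p, s' ≠ 0 ∧
      Θ (cl p (1 + algebraMap (FF K p) K s * x)) = cl p (1 + algebraMap (FF L p) L s' * x')

/-- a chosen representative of the image of a class -/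
noncomputable def rp (Θ : KOne K p ≃ₗ[ZMod p] KOne L p) (x : K) : L :=
  (cl_surj (Θ (cl p x))).choose

theorem rp_ne (Θ : KOne K p ≃ₗ[ZMod p] KOne L p) (x : K) : rp Θ x ≠ 0 :=
  (cl_surj (Θ (cl p x))).choose_spec.1

theorem cl_rp (Θ : KOne K p ≃ₗ[ZMod p] KOne L p) (x : K) : cl p (rp Θ x) = Θ (cl p x) :=
  (cl_surj (Θ (cl p x))).choose_spec.2

theorem rp_not_range (Θ : KOne K p ≃ₗ[ZMod p] KOne L p) {x : K} 
    (hx : x ∉ (algebraMap (FF K p) K).range) : rp Θ x ∉ (algebraMap (FF L p) L).range := by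
  have hx0 : x ≠ 0 := by rintro rfl; exact hx ⟨0, by simp⟩
  rw [← cl_eq_zero (rp_ne Θ x), cl_rp, LinearEquiv.map_eq_zero_iff, cl_eq_zero hx0]
  exact hx

theorem ne_zero_of_not_range {x : K} (hx : x ∉ (algebraMap (FF K p) K).range) : x ≠ 0 := by
  rintro rfl; exact hx ⟨0, by simp⟩

theorem one_add_not_range {x : K} (hx : x ∉ (algebraMap (FF K p) K).range) {s : FF K p}
    (hs : s ≠ 0) : 1 + algebraMap (FF K p) K s * x ∉ (algebraMap (FF K p) K).range := by
  rintro ⟨c, hc⟩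
  apply hx
  refine ⟨(c - 1) / s, ?_⟩
  have : algebraMap (FF K p) K s ≠ 0 := (_root_.map_ne_zero _).2 hs
  rw [map_div₀, map_sub, hc, map_one]
  field_simp
  ring

theorem one_add_div_not_range {x : K} (hx : x ∉ (algebraMap (FF K p) K).range) (s : FF K p) :
    (1 + algebraMap (FF K p) K s * x) / x ∉ (algebraMap (FF K p) K).range := by
  rintro ⟨c, hc⟩
  have hx0 := ne_zero_of_not_range hx
  have h1 : algebraMap (FF K p) K (c - s) * x = 1 := by
    rw [map_sub, hc]; field_simp; ring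
  apply hx
  refine ⟨(c - s)⁻¹, ?_⟩
  rw [map_inv₀]
  exact (eq_inv_of_mul_eq_one_right h1).symm

theorem not_monomial {x : K} (hx : x ∉ (algebraMap (FF K p) K).range) {s : FF K p}
    (hs : s ≠ 0) {j : ℕ} (hj : j < p) (f : FF K p) :
    1 + algebraMap (FF K p) K s * x ≠ algebraMap (FF K p) K f * x ^ j := by
  intro h
  have h8 : C 1 + C s * X ^ 1 - C f * X ^ j = (0 : (FF K p)[X]) := by
    apply indep (powIn K p) hK hx
    · refine lt_of_le_of_lt (natDegree_sub_le _ _) (max_lt ?_ ?_)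
      · refine lt_of_le_of_lt (natDegree_add_le _ _) (max_lt ?_ ?_)
        · rw [natDegree_C]; exact hp.out.pos
        · exact lt_of_le_of_lt (natDegree_C_mul_X_pow_le _ _) hp.out.one_lt
      · exact lt_of_le_of_lt (natDegree_C_mul_X_pow_le _ _) hj
    · simp [h]
  rcases Nat.eq_zero_or_pos j with hj0 | hj0
  · subst hj0
    have h9 := congrArg (fun P => coeff P 1) h8
    simp only [coeff_sub, coeff_add, coeff_C_mul_X_pow, coeff_C, coeff_zero] at h9
    simp at h9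
    exact hs (by exact_mod_cast h9)
  · have h9 := congrArg (fun P => coeff P 0) h8
    simp only [coeff_sub, coeff_add, coeff_C_mul_X_pow, coeff_C, coeff_zero, if_neg hj0.ne] at h9
    simp at h9

theorem pair_r {Θ : KOne K p ≃ₗ[ZMod p] KOne L p} (hΘ : IsCompatible Θ) {x y : K}
    (hx : x ∉ (algebraMap (FF K p) K).range) (hy : y ∉ (FF K p)⟮x⟯) {s t : FF K p}
    (hs : s ≠ 0) (ht : t ≠ 0) :
    ∃ r, 0 < r ∧ r < p ∧
      (∃ e s' : FF L p, e ≠ 0 ∧ s' ≠ 0 ∧ rp Θ (1 + algebraMap (FF K p) K s * x) ^ r =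
        algebraMap (FF L p) L e * (1 + algebraMap (FF L p) L s' * rp Θ x ^ r)) ∧
      (∃ e t' : FF L p, e ≠ 0 ∧ t' ≠ 0 ∧ rp Θ (1 + algebraMap (FF K p) K t * y) ^ r =
        algebraMap (FF L p) L e * (1 + algebraMap (FF L p) L t' * rp Θ y ^ r)) := by
  have hF := powIn K p
  have hyF := not_range hF hK hy
  have hx0 := ne_zero_of_not_range hx
  have hy0 := ne_zero_of_not_range hyF
  set a := 1 + algebraMap (FF K p) K s * x with ha
  set b := 1 + algebraMap (FF K p) K t * y with hb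
  have haF := one_add_not_range hx hs
  have hbF := one_add_not_range hyF ht
  have ha0 : a ≠ 0 := ne_zero_of_not_range haF
  have hb0 : b ≠ 0 := ne_zero_of_not_range hbF
  set c := a - b with hc
  have hs' : algebraMap (FF K p) K s ≠ 0 := (_root_.map_ne_zero _).2 hs
  have ht' : algebraMap (FF K p) K t ≠ 0 := (_root_.map_ne_zero _).2 ht
  have hc' : c = algebraMap (FF K p) K s * x - algebraMap (FF K p) K t * y := by
    rw [hc, ha, hb]; ring
  have hxmem := IntermediateField.mem_adjoin_simple_self (FF K p) x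
  have hymem := IntermediateField.mem_adjoin_simple_self (FF K p) y
  have hc0 : c ≠ 0 := by
    intro h0
    apply hy
    have : y = algebraMap (FF K p) K (s / t) * x := by
      rw [map_div₀]; field_simp
      rw [hc'] at h0
      linear_combination -h0
    rw [this]
    exact mul_mem (IntermediateField.algebraMap_mem _ _) hxmem
  have hamem : a ∈ (FF K p)⟮x⟯ := add_mem (one_mem _)
    (mul_mem (IntermediateField.algebraMap_mem _ _) hxmem)
  have hbmem : b ∈ (FF K p)⟮y⟯ := add_mem (one_mem _)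
    (mul_mem (IntermediateField.algebraMap_mem _ _) hymem)
  -- images
  have hxL : rp Θ x ∉ (algebraMap (FF L p) L).range := rp_not_range Θ hx
  have hyL : rp Θ y ∉ (FF L p)⟮rp Θ x⟯ := by
    intro h
    apply hy
    exact adj (compat_symm hΘ) (rp_ne Θ y) h hx0 hy0
      (by rw [cl_rp, LinearEquiv.symm_apply_apply]) (by rw [cl_rp, LinearEquiv.symm_apply_apply])
  have h1 : rp Θ a ∈ (FF L p)⟮rp Θ x⟯ := adj hΘ ha0 hamem (rp_ne _ _) (rp_ne _ _) (cl_rp _ _) (cl_rp _ _)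
  have h2 : rp Θ b ∈ (FF L p)⟮rp Θ y⟯ := adj hΘ hb0 hbmem (rp_ne _ _) (rp_ne _ _) (cl_rp _ _) (cl_rp _ _)
  have h3 : rp Θ a ∉ (algebraMap (FF L p) L).range := rp_not_range Θ haF
  have h4 : rp Θ b ∉ (algebraMap (FF L p) L).range := rp_not_range Θ hbF
  have h5 : rp Θ a / rp Θ x ∉ (algebraMap (FF L p) L).range := by
    rw [← cl_eq_zero (div_ne_zero (rp_ne _ _) (rp_ne _ _)), cl_div (rp_ne _ _) (rp_ne _ _), cl_rp,
      cl_rp, theta_sub, LinearEquiv.map_eq_zero_iff, ← cl_div ha0 hx0,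
      cl_eq_zero (div_ne_zero ha0 hx0)]
    exact one_add_div_not_range hx s
  have h6 : rp Θ b / rp Θ y ∉ (algebraMap (FF L p) L).range := by
    rw [← cl_eq_zero (div_ne_zero (rp_ne _ _) (rp_ne _ _)), cl_div (rp_ne _ _) (rp_ne _ _), cl_rp,
      cl_rp, theta_sub, LinearEquiv.map_eq_zero_iff, ← cl_div hb0 hy0,
      cl_eq_zero (div_ne_zero hb0 hy0)]
    exact one_add_div_not_range hyF t
  have h7 : rp Θ c / rp Θ y ∈ (FF L p)⟮rp Θ x / rp Θ y⟯ := by
    have hcy : c / y ∈ (FF K p)⟮x / y⟯ := by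
      have : c / y = algebraMap (FF K p) K s * (x / y) - algebraMap (FF K p) K t := by
        rw [hc']; field_simp
      rw [this]
      exact sub_mem (mul_mem (IntermediateField.algebraMap_mem _ _)
        (IntermediateField.mem_adjoin_simple_self _ _)) (IntermediateField.algebraMap_mem _ _)
    exact adj hΘ (div_ne_zero hc0 hy0) hcy (div_ne_zero (rp_ne _ _) (rp_ne _ _))
      (div_ne_zero (rp_ne _ _) (rp_ne _ _))
      (by rw [cl_div (rp_ne _ _) (rp_ne _ _), cl_rp, cl_rp, theta_sub, ← cl_div hx0 hy0])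
      (by rw [cl_div (rp_ne _ _) (rp_ne _ _), cl_rp, cl_rp, theta_sub, ← cl_div hc0 hy0])
  have h8 : rp Θ y * (rp Θ c / rp Θ y) / rp Θ b ∈ (FF L p)⟮rp Θ a / rp Θ b⟯ := by
    have hcb : c / b ∈ (FF K p)⟮a / b⟯ := by
      have : c / b = a / b - 1 := by rw [hc]; field_simp
      rw [this]
      exact sub_mem (IntermediateField.mem_adjoin_simple_self _ _) (one_mem _)
    have h9 : rp Θ y * (rp Θ c / rp Θ y) / rp Θ b = rp Θ c / rp Θ b := by
      have := rp_ne Θ y
      field_simp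
    rw [h9]
    exact adj hΘ (div_ne_zero hc0 hb0) hcb (div_ne_zero (rp_ne _ _) (rp_ne _ _))
      (div_ne_zero (rp_ne _ _) (rp_ne _ _))
      (by rw [cl_div (rp_ne _ _) (rp_ne _ _), cl_rp, cl_rp, theta_sub, ← cl_div ha0 hb0])
      (by rw [cl_div (rp_ne _ _) (rp_ne _ _), cl_rp, cl_rp, theta_sub, ← cl_div hc0 hb0])
  rcases classify (powIn L p) hL hxL hyL h1 h3 h5 h2 h4 h6 h7
    (div_ne_zero (rp_ne _ _) (rp_ne _ _)) h8 with
    ⟨j, hj, _, _, e, _, he, _⟩ | ⟨r, hr0, hrp, e, s', e', t', he, hs', he', ht', h10, h11⟩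
  · exfalso
    have he0 : e ≠ 0 := by
      rintro rfl
      rw [map_zero, zero_mul] at he
      exact rp_ne _ _ he
    have h12 : cl p (rp Θ a) = cl p (rp Θ x ^ j) := by
      rw [he, cl_smul (pow_ne_zero _ (rp_ne _ _)) he0]
    rw [cl_pow (rp_ne _ _), cl_rp, cl_rp, ← map_nsmul, ← cl_pow hx0] at h12
    have h13 := Θ.injective h12
    obtain ⟨f, _, hf⟩ := (cl_eq_iff ha0 (pow_ne_zero _ hx0)).1 h13
    exact not_monomial hx hs hj f hf
  · exact ⟨r, hr0, hrp, ⟨e, s', he, hs', h10⟩, ⟨e', t', he', ht', h11⟩⟩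

theorem exists_r {Θ : KOne K p ≃ₗ[ZMod p] KOne L p} (hΘ : IsCompatible Θ)
    (HP : ∀ x : K, ∃ y, y ∉ (FF K p)⟮x⟯) :
    ∃ r, 0 < r ∧ r < p ∧ ∀ x : K, x ∉ (algebraMap (FF K p) K).range → ∀ s : FF K p, s ≠ 0 →
      (∃ e s' : FF L p, e ≠ 0 ∧ s' ≠ 0 ∧ rp Θ (1 + algebraMap (FF K p) K s * x) ^ r =
        algebraMap (FF L p) L e * (1 + algebraMap (FF L p) L s' * rp Θ x ^ r)) := by
  obtain ⟨y, hy⟩ := HP 0
  have hyF := not_range (powIn K p) hK hy
  obtain ⟨z, hz⟩ := HP y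
  have hzF := not_range (powIn K p) hK hz
  obtain ⟨r, hr0, hrp, ⟨e1, s1, he1, hs1, h1⟩, ⟨e2, s2, he2, hs2, h2⟩⟩ :=
    pair_r hΘ hyF hz (s := 1) (t := 1) one_ne_zero one_ne_zero
  refine ⟨r, hr0, hrp, fun x hx s hs => ?_⟩
  by_cases hxy : x ∈ (FF K p)⟮y⟯
  · have hzx : z ∉ (FF K p)⟮x⟯ := by
      intro h
      apply hz
      have : (FF K p)⟮x⟯ ≤ (FF K p)⟮y⟯ := by
        rw [IntermediateField.adjoin_simple_le_iff]; exact hxy
      exact this h
    obtain ⟨r', hr0', hrp', ⟨e3, s3, he3, hs3, h3⟩, ⟨e4, s4, he4, hs4, h4⟩⟩ :=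
      pair_r hΘ hx hzx (s := s) (t := 1) hs one_ne_zero
    have : r = r' := unique_r (powIn L p) hL (rp_not_range Θ hzF) (rp_ne _ _) hr0 hrp hr0' hrp'
      he2 hs2 he4 hs4 h2 h4
    subst this
    exact ⟨e3, s3, he3, hs3, h3⟩
  · obtain ⟨r', hr0', hrp', ⟨e3, s3, he3, hs3, h3⟩, ⟨e4, s4, he4, hs4, h4⟩⟩ :=
      pair_r hΘ hyF hxy (s := 1) (t := s) one_ne_zero hs
    have : r = r' := unique_r (powIn L p) hL (rp_not_range Θ hyF) (rp_ne _ _) hr0 hrp hr0' hrp'
      he1 hs1 he3 hs3 h1 h3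
    subst this
    exact ⟨e4, s4, he4, hs4, h4⟩

/-- multiply by a nonzero scalar -/
noncomputable def scal (c : ZMod p) (hc : c ≠ 0) (Θ : KOne K p ≃ₗ[ZMod p] KOne L p) :
    KOne K p ≃ₗ[ZMod p] KOne L p :=
  Θ.trans (LinearEquiv.smulOfNeZero (ZMod p) (KOne L p) c hc)

theorem scal_apply (c : ZMod p) (hc : c ≠ 0) (Θ : KOne K p ≃ₗ[ZMod p] KOne L p) (u : KOne K p) :
    scal c hc Θ u = c • Θ u := by
  simp [scal]

theorem exists_LP {Θ : KOne K p ≃ₗ[ZMod p] KOne L p} (hΘ : IsCompatible Θ)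
    (HP : ∀ x : K, ∃ y, y ∉ (FF K p)⟮x⟯) :
    ∃ (c : ZMod p) (hc : c ≠ 0), LP (scal c hc Θ) := by
  obtain ⟨r, hr0, hrp, h⟩ := exists_r hΘ HP
  have hc : (r : ZMod p) ≠ 0 := by
    intro h0
    rw [ZMod.natCast_eq_zero_iff] at h0
    exact absurd (Nat.le_of_dvd hr0 h0) (by omega)
  refine ⟨(r : ZMod p), hc, ?_⟩
  intro x hx s hs x' hx'0 hx'
  obtain ⟨e, s', he, hs', h1⟩ := h x hx s hs
  have hx0 := ne_zero_of_not_range hx
  rw [scal_apply, Nat.cast_smul_eq_nsmul] at hx'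
  have h2 : cl p x' = cl p (rp Θ x ^ r) := by
    rw [cl_pow (rp_ne _ _), cl_rp, hx']
  obtain ⟨f, hf0, hf⟩ := (cl_eq_iff hx'0 (pow_ne_zero _ (rp_ne _ _))).1 h2
  have hf0' : algebraMap (FF L p) L f ≠ 0 := (_root_.map_ne_zero _).2 hf0
  refine ⟨s' / f, div_ne_zero hs' hf0, ?_⟩
  have h3 : 1 + algebraMap (FF L p) L s' * rp Θ x ^ r ≠ 0 := by
    intro h0
    rw [h0, mul_zero] at h1
    exact pow_ne_zero _ (rp_ne _ _) h1
  have h4 : 1 + algebraMap (FF L p) L (s' / f) * x' =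
      1 + algebraMap (FF L p) L s' * rp Θ x ^ r := by
    rw [hf, map_div₀]; field_simp
  rw [h4, scal_apply, Nat.cast_smul_eq_nsmul, ← cl_rp, ← cl_pow (rp_ne _ _), h1, cl_smul h3 he]

end Theta

end Crest.Agent.H1.Milnor
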