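import Crest.Agent.H1.MilnorC

/-!
Fundamental theorem of projective geometry for multiplicative collineations.
-/

set_option autoImplicit false
set_option linter.unusedSectionVars false
set_option linter.unusedVariables false

open Polynomial IntermediateField Crest.NumberTheoryR.MilnorK
open scoped TensorProduct

namespace Crest.Agent.H1.Milnor

section Lin

variable {K : Type*} [Field K] {p : ℕ} [hp : Fact p.Prime] [hK : CharP K p]

local notation "ι" => algebraMap (FF K p) K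

/-- span of `1, x` -/
def S1 (p : ℕ) [hp : Fact p.Prime] [hK : CharP K p] (x : K) : Submodule (FF K p) K :=
  Submodule.span (FF K p) {1, x}

/-- span of `1, x, y` -/
def S2 (p : ℕ) [hp : Fact p.Prime] [hK : CharP K p] (x y : K) : Submodule (FF K p) K :=
  Submodule.span (FF K p) {1, x, y}

theorem mem_S1 {x z : K} : z ∈ S1 p x ↔ ∃ a b : FF K p, z = ι a + ι b * x := by
  unfold S1
  rw [Submodule.mem_span_pair]
  constructor
  · rintro ⟨a, b, rfl⟩; exact ⟨a, b, by simp [Algebra.smul_def]⟩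
  · rintro ⟨a, b, rfl⟩; exact ⟨a, b, by simp [Algebra.smul_def]⟩

theorem S1_le_S2 (x y : K) : S1 p x ≤ S2 p x y := by
  apply Submodule.span_mono
  intro z hz; simp at hz ⊢; tauto

theorem one_mem_S1 (x : K) : (1 : K) ∈ S1 p x := Submodule.subset_span (by simp)
theorem self_mem_S1 (x : K) : x ∈ S1 p x := Submodule.subset_span (by simp)
theorem one_mem_S2 (x y : K) : (1 : K) ∈ S2 p x y := Submodule.subset_span (by simp)
theorem fst_mem_S2 (x y : K) : x ∈ S2 p x y := Submodule.subset_span (by simp)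
theorem snd_mem_S2 (x y : K) : y ∈ S2 p x y := Submodule.subset_span (by simp)

theorem alg_mem {x : K} {W : Submodule (FF K p) K} (h1 : (1 : K) ∈ W) (a : FF K p) : ι a ∈ W := by
  have := W.smul_mem a h1
  rwa [Algebra.smul_def, mul_one] at this

theorem alg_mul_mem {x : K} {W : Submodule (FF K p) K} (h1 : x ∈ W) (a : FF K p) : ι a * x ∈ W := by
  have := W.smul_mem a h1
  rwa [Algebra.smul_def] at this

theorem S1_le_of {x : K} {W : Submodule (FF K p) K} (h1 : (1 : K) ∈ W) (hx : x ∈ W) :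
    S1 p x ≤ W := by
  unfold S1
  rw [Submodule.span_le]
  intro z hz
  rcases hz with rfl | hz
  · exact h1
  · rw [Set.mem_singleton_iff.1 hz]; exact hx

theorem range_of_S1 {x y : K} (h : y ∉ S1 p x) : y ∉ (ι).range := by
  rintro ⟨a, rfl⟩
  exact h (alg_mem (x := x) (one_mem_S1 x) a)

theorem ind1 {x : K} (hx : x ∉ (ι).range) {a b a' b' : FF K p}
    (h : ι a + ι b * x = ι a' + ι b' * x) : a = a' ∧ b = b' := by
  have hb : b = b' := by
    by_contra hne
    have hne' : ι (b - b') ≠ 0 := (_root_.map_ne_zero _).2 (sub_ne_zero.2 hne)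
    apply hx
    refine ⟨(a' - a) / (b - b'), ?_⟩
    rw [map_div₀, div_eq_iff hne', map_sub, map_sub]
    linear_combination -h
  subst hb
  refine ⟨?_, rfl⟩
  apply (ι).injective
  linear_combination h

theorem ind2 {x y : K} (hx : x ∉ (ι).range) (hy : y ∉ S1 p x) {a b c a' b' c' : FF K p}
    (h : ι a + ι b * x + ι c * y = ι a' + ι b' * x + ι c' * y) : a = a' ∧ b = b' ∧ c = c' := by
  have hc : c = c' := by
    by_contra hne
    have hne' : ι (c - c') ≠ 0 := (_root_.map_ne_zero _).2 (sub_ne_zero.2 hne)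
    apply hy
    rw [mem_S1]
    refine ⟨(a' - a) / (c - c'), (b' - b) / (c - c'), ?_⟩
    rw [map_div₀, map_div₀]
    field_simp
    simp only [map_sub]
    linear_combination h
  subst hc
  have h1 : ι a + ι b * x = ι a' + ι b' * x := by linear_combination h
  obtain ⟨h2, h3⟩ := ind1 hx h1
  exact ⟨h2, h3, rfl⟩

theorem S1_symm {x y : K} (hx : x ∉ (ι).range) (hy : y ∉ S1 p x) : x ∉ S1 p y := by
  intro h
  obtain ⟨a, b, hab⟩ := mem_S1.1 h
  have hb : b ≠ 0 := by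
    rintro rfl
    exact hx ⟨a, by rw [hab]; simp⟩
  have hb' : ι b ≠ 0 := (_root_.map_ne_zero _).2 hb
  apply hy
  rw [mem_S1]
  refine ⟨-(a / b), 1 / b, ?_⟩
  rw [map_neg, map_div₀, map_div₀, map_one]
  field_simp
  linear_combination -hab

theorem exists_avoid (HD : ∀ x y : K, ∃ z, z ∉ S2 p x y) (x z1 z2 : K) :
    ∃ z, z ∉ S2 p x z1 ∧ z ∉ S2 p x z2 := by
  obtain ⟨z, hz⟩ := HD x z1
  obtain ⟨w, hw⟩ := HD x z2
  by_cases h1 : z ∈ S2 p x z2
  · by_cases h2 : w ∈ S2 p x z1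
    · refine ⟨z + w, fun h => hz ?_, fun h => hw ?_⟩
      · have := (S2 p x z1).sub_mem h h2
        simpa using this
      · have := (S2 p x z2).sub_mem h h1
        simpa using this
    · exact ⟨w, h2, hw⟩
  · exact ⟨z, hz, h1⟩

theorem div_not_range_of_S1 {x y u : K} (hu : u ∈ S1 p x) (hu0 : u ≠ 0) (hy : y ∉ S1 p x) :
    y / u ∉ (ι).range := by
  rintro ⟨a, ha⟩
  apply hy
  have : y = ι a * u := by rw [ha]; field_simp
  rw [this]
  exact alg_mul_mem hu a

end Lin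

section FTPG

variable {K L : Type*} [Field K] [Field L] {p : ℕ} [hp : Fact p.Prime] [hK : CharP K p]
  [hL : CharP L p]

local notation "ιK" => algebraMap (FF K p) K
local notation "ιL" => algebraMap (FF L p) L

theorem exists_phi {Θ : KOne K p ≃ₗ[ZMod p] KOne L p} (h : LP Θ) {x : K} (hx : x ∉ (ιK).range) :
    ∃ w : L, w ≠ 0 ∧ cl p w = Θ (cl p x) ∧ cl p (1 + w) = Θ (cl p (1 + x)) := by
  obtain ⟨s, hs, hs'⟩ := h x hx 1 one_ne_zero (rp Θ x) (rp_ne _ _) (cl_rp _ _)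
  refine ⟨ιL s * rp Θ x, mul_ne_zero ((_root_.map_ne_zero _).2 hs) (rp_ne _ _), ?_, ?_⟩
  · rw [cl_smul (rp_ne _ _) hs, cl_rp]
  · rw [← hs', map_one, one_mul]

open Classical in
/-- the normalised representative -/
noncomputable def phi (Θ : KOne K p ≃ₗ[ZMod p] KOne L p) (x : K) : L :=
  if h : ∃ w : L, w ≠ 0 ∧ cl p w = Θ (cl p x) ∧ cl p (1 + w) = Θ (cl p (1 + x)) then h.choose
  else 0

theorem phi_spec {Θ : KOne K p ≃ₗ[ZMod p] KOne L p} (h : LP Θ) {x : K} (hx : x ∉ (ιK).range) :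
    phi Θ x ≠ 0 ∧ cl p (phi Θ x) = Θ (cl p x) ∧ cl p (1 + phi Θ x) = Θ (cl p (1 + x)) := by
  unfold phi
  rw [dif_pos (exists_phi h hx)]
  exact (exists_phi h hx).choose_spec

theorem image_not_range {Θ : KOne K p ≃ₗ[ZMod p] KOne L p} {x : K} (hx : x ∉ (ιK).range) {w : L}
    (hw : w ≠ 0) (h : cl p w = Θ (cl p x)) : w ∉ (ιL).range := by
  rw [← cl_eq_zero hw, h, LinearEquiv.map_eq_zero_iff, cl_eq_zero (ne_zero_of_not_range hx)]
  exact hx

theorem one_add_ne {w : L} (hw : w ∉ (ιL).range) : 1 + w ≠ 0 := by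
  intro h
  apply hw
  refine ⟨-1, ?_⟩
  rw [map_neg, map_one]
  linear_combination -h

theorem one_add_nr {w : L} (hw : w ∉ (ιL).range) : 1 + w ∉ (ιL).range := by
  rintro ⟨a, ha⟩
  apply hw
  exact ⟨a - 1, by rw [map_sub, ha, map_one]; ring⟩

theorem phi_unique {Θ : KOne K p ≃ₗ[ZMod p] KOne L p} (h : LP Θ) {x : K} (hx : x ∉ (ιK).range)
    {w : L} (hw : w ≠ 0) (h1 : cl p w = Θ (cl p x)) (h2 : cl p (1 + w) = Θ (cl p (1 + x))) :
    phi Θ x = w := by
  obtain ⟨g0, g1, g2⟩ := phi_spec h hx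
  have hwr := image_not_range hx hw h1
  have hgr := image_not_range hx g0 g1
  obtain ⟨f, hf, hf'⟩ := (cl_eq_iff hw g0).1 (h1.trans g1.symm)
  obtain ⟨g, hg, hg'⟩ := (cl_eq_iff (one_add_ne hwr) (one_add_ne hgr)).1 (h2.trans g2.symm)
  rw [hf'] at hg'
  have h3 : ιL 1 + ιL f * phi Θ x = ιL g + ιL g * phi Θ x := by
    rw [map_one]; linear_combination hg'
  obtain ⟨h4, h5⟩ := ind1 hgr h3
  rw [hf', h5, ← h4, map_one, one_mul]

theorem S1_image {Θ : KOne K p ≃ₗ[ZMod p] KOne L p} (h' : LP Θ.symm) {x y : K}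
    (hx : x ∉ (ιK).range) (hy : y ∉ S1 p x) {X Y : L} (hX0 : X ≠ 0) (hY0 : Y ≠ 0)
    (hX : cl p X = Θ (cl p x)) (hY : cl p Y = Θ (cl p y)) : Y ∉ S1 p X := by
  intro hmem
  obtain ⟨a, b, hab⟩ := mem_S1.1 hmem
  have hx0 := ne_zero_of_not_range hx
  have hyr := range_of_S1 hy
  have hy0 := ne_zero_of_not_range hyr
  have hXr := image_not_range hx hX0 hX
  have hYr := image_not_range hyr hY0 hY
  by_cases ha : a = 0
  · subst ha
    rw [map_zero, zero_add] at hab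
    have hb : b ≠ 0 := by rintro rfl; rw [map_zero, zero_mul] at hab; exact hY0 hab
    have h1 : cl p Y = cl p X := by rw [hab, cl_smul hX0 hb]
    rw [hX, hY] at h1
    obtain ⟨f, _, hf⟩ := (cl_eq_iff hy0 hx0).1 (Θ.injective h1)
    exact hy (hf ▸ alg_mul_mem (self_mem_S1 x) f)
  by_cases hb : b = 0
  · subst hb
    rw [map_zero, zero_mul, add_zero] at hab
    exact hYr ⟨a, hab.symm⟩
  have hba : b / a ≠ 0 := div_ne_zero hb ha
  have ha' : ιL a ≠ 0 := (_root_.map_ne_zero _).2 ha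
  have h1 : Y = ιL a * (1 + ιL (b / a) * X) := by
    rw [hab, map_div₀]; field_simp
  have h10 : 1 + ιL (b / a) * X ≠ 0 := by
    intro h0; rw [h0, mul_zero] at h1; exact hY0 h1
  have h2 : cl p Y = cl p (1 + ιL (b / a) * X) := by
    conv_lhs => rw [h1]
    rw [cl_smul h10 ha]
  obtain ⟨s, hs, hs'⟩ := h' X hXr (b / a) hba x hx0 (by rw [hX, LinearEquiv.symm_apply_apply])
  rw [← h2, hY, LinearEquiv.symm_apply_apply] at hs'
  have h11 := one_add_not_range hx hs
  obtain ⟨f, _, hf⟩ := (cl_eq_iff hy0 (ne_zero_of_not_range h11)).1 hs'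
  apply hy
  rw [hf]
  exact alg_mul_mem ((S1 p x).add_mem (one_mem_S1 x) (alg_mul_mem (self_mem_S1 x) s)) f

theorem phi_add {Θ : KOne K p ≃ₗ[ZMod p] KOne L p} (h : LP Θ) (h' : LP Θ.symm) {x y : K}
    (hx : x ∉ (ιK).range) (hy : y ∉ S1 p x) : phi Θ (x + y) = phi Θ x + phi Θ y := by
  have hyr := range_of_S1 hy
  have hx0 := ne_zero_of_not_range hx
  have hy0 := ne_zero_of_not_range hyr
  have hx' := S1_symm hx hy
  obtain ⟨X0, X1, X2⟩ := phi_spec h hx
  obtain ⟨Y0, Y1, Y2⟩ := phi_spec h hyr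
  set X := phi Θ x with hX
  set Y := phi Θ y with hY
  have hXr := image_not_range hx X0 X1
  have hYr := image_not_range hyr Y0 Y1
  have hYS : Y ∉ S1 p X := S1_image h' hx hy X0 Y0 X1 Y1
  have h1x := one_add_ne hx
  have h1y := one_add_ne hyr
  have h1X := one_add_ne hXr
  have h1Y := one_add_ne hYr
  have hxyr : x + y ∉ (ιK).range := by
    rintro ⟨a, ha⟩
    apply hy
    rw [mem_S1]
    exact ⟨a, -1, by rw [map_neg, map_one, ha]; ring⟩
  have hxy0 := ne_zero_of_not_range hxyr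
  have h1xy := one_add_ne hxyr
  -- first line
  have e1 : y / (1 + x) ∉ (ιK).range :=
    div_not_range_of_S1 ((S1 p x).add_mem (one_mem_S1 x) (self_mem_S1 x)) h1x hy
  have e2 : x / (1 + y) ∉ (ιK).range :=
    div_not_range_of_S1 ((S1 p y).add_mem (one_mem_S1 y) (self_mem_S1 y)) h1y hx'
  have e3 : y / x ∉ (ιK).range := div_not_range_of_S1 (self_mem_S1 x) hx0 hy
  obtain ⟨α, hα, hα'⟩ := h _ e1 1 one_ne_zero (Y / (1 + X)) (div_ne_zero Y0 h1X)
    (by rw [cl_div Y0 h1X, cl_div hy0 h1x, Y1, X2, theta_sub])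
  obtain ⟨β, hβ, hβ'⟩ := h _ e2 1 one_ne_zero (X / (1 + Y)) (div_ne_zero X0 h1Y)
    (by rw [cl_div X0 h1Y, cl_div hx0 h1y, X1, Y2, theta_sub])
  obtain ⟨γ, hγ, hγ'⟩ := h _ e3 1 one_ne_zero (Y / X) (div_ne_zero Y0 X0)
    (by rw [cl_div Y0 X0, cl_div hy0 hx0, Y1, X1, theta_sub])
  rw [map_one, one_mul] at hα' hβ' hγ'
  have f1 : 1 + (x + y) = (1 + x) * (1 + y / (1 + x)) := by field_simp; ring
  have f2 : 1 + (x + y) = (1 + y) * (1 + x / (1 + y)) := by field_simp; ring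
  have f3 : x + y = x * (1 + y / x) := by field_simp
  have nz1 : 1 + y / (1 + x) ≠ 0 := by intro h0; rw [h0, mul_zero] at f1; exact h1xy f1
  have nz2 : 1 + x / (1 + y) ≠ 0 := by intro h0; rw [h0, mul_zero] at f2; exact h1xy f2
  have nz3 : 1 + y / x ≠ 0 := by intro h0; rw [h0, mul_zero] at f3; exact hxy0 f3
  have g1 : 1 + X + ιL α * Y = (1 + X) * (1 + ιL α * (Y / (1 + X))) := by field_simp
  have g2 : 1 + Y + ιL β * X = (1 + Y) * (1 + ιL β * (X / (1 + Y))) := by field_simp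
  have g3 : X + ιL γ * Y = X * (1 + ιL γ * (Y / X)) := by field_simp
  have nZ1 : 1 + X + ιL α * Y ≠ 0 := by
    intro h0
    apply hYS
    rw [mem_S1]
    have hα0 : ιL α ≠ 0 := (_root_.map_ne_zero _).2 hα
    refine ⟨-(1 / α), -(1 / α), ?_⟩
    rw [map_neg, map_div₀, map_one]
    field_simp
    linear_combination h0
  have nZ2 : 1 + Y + ιL β * X ≠ 0 := by
    intro h0
    apply hYS
    rw [mem_S1]
    refine ⟨-1, -β, ?_⟩
    rw [map_neg, map_neg, map_one]
    linear_combination h0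
  have nZ3 : X + ιL γ * Y ≠ 0 := by
    intro h0
    apply hYS
    rw [mem_S1]
    have hγ0 : ιL γ ≠ 0 := (_root_.map_ne_zero _).2 hγ
    refine ⟨0, -(1 / γ), ?_⟩
    rw [map_zero, map_neg, map_div₀, map_one]
    field_simp
    linear_combination h0
  have k1 : Θ (cl p (1 + (x + y))) = cl p (1 + X + ιL α * Y) := by
    have nn : 1 + ιL α * (Y / (1 + X)) ≠ 0 := by
      intro h0; rw [h0, mul_zero] at g1; exact nZ1 g1
    rw [f1, g1, cl_mul h1x nz1, cl_mul h1X nn, map_add, hα', X2]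
  have k2 : Θ (cl p (1 + (x + y))) = cl p (1 + Y + ιL β * X) := by
    have nn : 1 + ιL β * (X / (1 + Y)) ≠ 0 := by
      intro h0; rw [h0, mul_zero] at g2; exact nZ2 g2
    rw [f2, g2, cl_mul h1y nz2, cl_mul h1Y nn, map_add, hβ', Y2]
  have k3 : Θ (cl p (x + y)) = cl p (X + ιL γ * Y) := by
    have nn : 1 + ιL γ * (Y / X) ≠ 0 := by
      intro h0; rw [h0, mul_zero] at g3; exact nZ3 g3
    rw [f3, g3, cl_mul hx0 nz3, cl_mul X0 nn, map_add, hγ', X1]
  obtain ⟨f, hf, hf'⟩ := (cl_eq_iff nZ1 nZ2).1 (k1.symm.trans k2)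
  have hh : ιL 1 + ιL 1 * X + ιL α * Y = ιL f + ιL (f * β) * X + ιL f * Y := by
    rw [map_one, map_mul]; linear_combination hf'
  obtain ⟨q1, q2, q3⟩ := ind2 hXr hYS hh
  have hα1 : α = 1 := by rw [q3, ← q1]
  rw [hα1, map_one, one_mul] at k1
  obtain ⟨δ, hδ, hδ'⟩ := h _ hxyr 1 one_ne_zero (X + ιL γ * Y) nZ3 k3.symm
  rw [map_one, one_mul, k1] at hδ'
  have nZ4 : 1 + X + Y ≠ 0 := by
    have := nZ1
    rw [hα1, map_one, one_mul] at this
    exact this
  have nZ5 : 1 + ιL δ * (X + ιL γ * Y) ≠ 0 := by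
    intro h0
    apply hYS
    rw [mem_S1]
    have hγ0 : ιL γ ≠ 0 := (_root_.map_ne_zero _).2 hγ
    have hδ0 : ιL δ ≠ 0 := (_root_.map_ne_zero _).2 hδ
    refine ⟨-(1 / (δ * γ)), -(1 / γ), ?_⟩
    rw [map_neg, map_neg, map_div₀, map_div₀, map_one, map_mul]
    field_simp
    linear_combination h0
  obtain ⟨g, hg, hg'⟩ := (cl_eq_iff nZ4 nZ5).1 hδ'
  have hh2 : ιL 1 + ιL 1 * X + ιL 1 * Y = ιL g + ιL (g * δ) * X + ιL (g * δ * γ) * Y := by
    rw [map_one, map_mul, map_mul, map_mul]; linear_combination hg'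
  obtain ⟨r1, r2, r3⟩ := ind2 hXr hYS hh2
  have hγ1 : γ = 1 := by
    rw [← r1, one_mul] at r2 r3
    rw [← r2, one_mul] at r3
    exact r3.symm
  rw [hγ1, map_one, one_mul] at k3 nZ3
  exact phi_unique h hxyr nZ3 k3.symm (by rw [k1, add_assoc])

/-- the additive extension -/
noncomputable def Phi (HD : ∀ x y : K, ∃ z, z ∉ S2 p x y) (Θ : KOne K p ≃ₗ[ZMod p] KOne L p)
    (x : K) : L :=
  phi Θ ((HD x 0).choose + x) - phi Θ ((HD x 0).choose)

theorem diff_aux {Θ : KOne K p ≃ₗ[ZMod p] KOne L p} (h : LP Θ) (h' : LP Θ.symm) {x z1 z3 : K}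
    (h1 : z1 ∉ S1 p x) (h3 : z3 ∉ S2 p x z1) :
    phi Θ (z1 + x) - phi Θ z1 = phi Θ (z3 + x) - phi Θ z3 := by
  have h1r := range_of_S1 h1
  have a1 : z1 + x ∉ (ιK).range := by
    rintro ⟨a, ha⟩
    apply h1
    rw [mem_S1]
    exact ⟨a, -1, by rw [map_neg, map_one, ha]; ring⟩
  have a2 : z3 ∉ S1 p (z1 + x) := by
    intro hm
    exact h3 (S1_le_of (one_mem_S2 x z1) ((S2 p x z1).add_mem (snd_mem_S2 x z1) (fst_mem_S2 x z1)) hm)
  have a3 : z3 + x ∉ S1 p z1 := by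
    intro hm
    have := S1_le_of (one_mem_S2 x z1) (snd_mem_S2 x z1) hm
    have := (S2 p x z1).sub_mem this (fst_mem_S2 x z1)
    rw [add_sub_cancel_right] at this
    exact h3 this
  have b1 := phi_add h h' a1 a2
  have b2 := phi_add h h' h1r a3
  have : z1 + x + z3 = z1 + (z3 + x) := by ring
  rw [this, b2] at b1
  linear_combination -b1

theorem Phi_eq (HD : ∀ x y : K, ∃ z, z ∉ S2 p x y) {Θ : KOne K p ≃ₗ[ZMod p] KOne L p}
    (h : LP Θ) (h' : LP Θ.symm) {x z : K} (hz : z ∉ S1 p x) :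
    Phi HD Θ x = phi Θ (z + x) - phi Θ z := by
  unfold Phi
  have hc := (HD x 0).choose_spec
  set w := (HD x 0).choose
  have hw : w ∉ S1 p x := fun hm => hc (S1_le_S2 x 0 hm)
  obtain ⟨z3, h31, h32⟩ := exists_avoid HD x w z
  rw [diff_aux h h' hw h31, diff_aux h h' hz h32]

theorem exists_not_S1 (HD : ∀ x y : K, ∃ z, z ∉ S2 p x y) (x : K) : ∃ z, z ∉ S1 p x := by
  obtain ⟨z, hz⟩ := HD x 0
  exact ⟨z, fun hm => hz (S1_le_S2 x 0 hm)⟩

theorem Phi_add (HD : ∀ x y : K, ∃ z, z ∉ S2 p x y) {Θ : KOne K p ≃ₗ[ZMod p] KOne L p}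
    (h : LP Θ) (h' : LP Θ.symm) (x y : K) : Phi HD Θ (x + y) = Phi HD Θ x + Phi HD Θ y := by
  obtain ⟨z, hz⟩ := HD x y
  have h1 : z ∉ S1 p x := fun hm => hz (S1_le_S2 x y hm)
  have h2 : z + x ∉ S1 p y := by
    intro hm
    have := S1_le_of (one_mem_S2 x y) (snd_mem_S2 x y) hm
    have := (S2 p x y).sub_mem this (fst_mem_S2 x y)
    rw [add_sub_cancel_right] at this
    exact hz this
  have h3 : z ∉ S1 p (x + y) := by
    intro hm
    exact hz (S1_le_of (one_mem_S2 x y) ((S2 p x y).add_mem (fst_mem_S2 x y) (snd_mem_S2 x y)) hm)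
  rw [Phi_eq HD h h' h1, Phi_eq HD h h' h2, Phi_eq HD h h' h3, add_assoc]
  ring

theorem Phi_not_range (HD : ∀ x y : K, ∃ z, z ∉ S2 p x y) {Θ : KOne K p ≃ₗ[ZMod p] KOne L p}
    (h : LP Θ) (h' : LP Θ.symm) {x : K} (hx : x ∉ (ιK).range) : Phi HD Θ x = phi Θ x := by
  obtain ⟨z, hz⟩ := exists_not_S1 HD x
  rw [Phi_eq HD h h' hz, add_comm z x, phi_add h h' hx hz]
  ring

theorem Phi_range (HD : ∀ x y : K, ∃ z, z ∉ S2 p x y) {Θ : KOne K p ≃ₗ[ZMod p] KOne L p}
    (h : LP Θ) (h' : LP Θ.symm) {a : FF K p} (ha : a ≠ 0) :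
    ∃ b : FF L p, b ≠ 0 ∧ Phi HD Θ (ιK a) = ιL b := by
  have key : ∀ z : K, z ∉ (ιK).range → ∃ f s : FF L p, f ≠ 0 ∧ s ≠ 0 ∧
      Phi HD Θ (ιK a) = ιL (f * s) + ιL (f - 1) * phi Θ z := by
    intro z hz
    have hz0 := ne_zero_of_not_range hz
    have hzS : z ∉ S1 p (ιK a) := by
      intro hm
      obtain ⟨u, v, huv⟩ := mem_S1.1 hm
      exact hz ⟨u + v * a, by rw [huv, map_add, map_mul]⟩
    obtain ⟨Z0, Z1, Z2⟩ := phi_spec h hz
    have hzi : z⁻¹ ∉ (ιK).range := by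
      rintro ⟨u, hu⟩
      exact hz ⟨u⁻¹, by rw [map_inv₀, hu, inv_inv]⟩
    obtain ⟨s, hs, hs'⟩ := h z⁻¹ hzi a ha (phi Θ z)⁻¹ (inv_ne_zero Z0)
      (by rw [cl_inv Z0, cl_inv hz0, Z1, map_neg])
    have hza : z + ιK a ∉ (ιK).range := by
      rintro ⟨u, hu⟩
      exact hz ⟨u - a, by rw [map_sub, hu]; ring⟩
    have hza0 := ne_zero_of_not_range hza
    obtain ⟨W0, W1, W2⟩ := phi_spec h hza
    have e1 : z + ιK a = z * (1 + ιK a * z⁻¹) := by field_simp
    have n1 : 1 + ιK a * z⁻¹ ≠ 0 := by intro h0; rw [h0, mul_zero] at e1; exact hza0 e1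
    have hZr := image_not_range hz Z0 Z1
    have e2 : phi Θ z + ιL s = phi Θ z * (1 + ιL s * (phi Θ z)⁻¹) := by field_simp
    have n3 : phi Θ z + ιL s ≠ 0 := by
      intro h0
      apply hZr
      exact ⟨-s, by rw [map_neg]; linear_combination -h0⟩
    have n2 : 1 + ιL s * (phi Θ z)⁻¹ ≠ 0 := by intro h0; rw [h0, mul_zero] at e2; exact n3 e2
    have e3 : cl p (phi Θ (z + ιK a)) = cl p (phi Θ z + ιL s) := by
      rw [W1, e2, e1, cl_mul hz0 n1, cl_mul Z0 n2, map_add, hs', Z1]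
    obtain ⟨f, hf, hf'⟩ := (cl_eq_iff W0 n3).1 e3
    refine ⟨f, s, hf, hs, ?_⟩
    rw [Phi_eq HD h h' hzS, hf', map_mul, map_sub, map_one]
    ring
  obtain ⟨z1, hz1⟩ := exists_not_S1 HD (0 : K)
  have hz1r := range_of_S1 hz1
  obtain ⟨z2, hz2⟩ := exists_not_S1 HD z1
  have hz2r := range_of_S1 hz2
  obtain ⟨f1, s1, hf1, hs1, h1⟩ := key z1 hz1r
  obtain ⟨f2, s2, hf2, hs2, h2⟩ := key z2 hz2r
  obtain ⟨A0, A1, A2⟩ := phi_spec h hz1r
  obtain ⟨B0, B1, B2⟩ := phi_spec h hz2r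
  have hS := S1_image h' hz1r hz2 A0 B0 A1 B1
  have hh : ιL (f1 * s1) + ιL (f1 - 1) * phi Θ z1 + ιL 0 * phi Θ z2 =
      ιL (f2 * s2) + ιL 0 * phi Θ z1 + ιL (f2 - 1) * phi Θ z2 := by
    rw [map_zero]
    linear_combination h2 - h1
  obtain ⟨q1, q2, q3⟩ := ind2 (image_not_range hz1r A0 A1) hS hh
  refine ⟨f1 * s1, mul_ne_zero hf1 hs1, ?_⟩
  rw [h1, q2, map_zero, zero_mul, add_zero]

theorem cl_Phi (HD : ∀ x y : K, ∃ z, z ∉ S2 p x y) {Θ : KOne K p ≃ₗ[ZMod p] KOne L p}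
    (h : LP Θ) (h' : LP Θ.symm) {x : K} (hx : x ≠ 0) :
    Phi HD Θ x ≠ 0 ∧ cl p (Phi HD Θ x) = Θ (cl p x) := by
  by_cases hxr : x ∈ (ιK).range
  · obtain ⟨a, rfl⟩ := hxr
    have ha : a ≠ 0 := by rintro rfl; simp at hx
    obtain ⟨b, hb, hb'⟩ := Phi_range HD h h' ha
    rw [hb']
    exact ⟨(_root_.map_ne_zero _).2 hb, by rw [cl_algebraMap, cl_algebraMap, map_zero]⟩
  · rw [Phi_not_range HD h h' hxr]
    obtain ⟨W0, W1, W2⟩ := phi_spec h hxr
    exact ⟨W0, W1⟩

theorem Phi_one (HD : ∀ x y : K, ∃ z, z ∉ S2 p x y) {Θ : KOne K p ≃ₗ[ZMod p] KOne L p}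
    (h : LP Θ) (h' : LP Θ.symm) : Phi HD Θ 1 = 1 := by
  obtain ⟨z, hz⟩ := exists_not_S1 HD (1 : K)
  have hzr := range_of_S1 hz
  obtain ⟨b, hb, hb'⟩ := Phi_range HD h h' (a := 1) one_ne_zero
  rw [map_one] at hb'
  have h1 : Phi HD Θ (1 + z) = ιL b + phi Θ z := by
    rw [Phi_add HD h h', hb', Phi_not_range HD h h' hzr]
  obtain ⟨Z0, Z1, Z2⟩ := phi_spec h hzr
  have hZr := image_not_range hzr Z0 Z1
  obtain ⟨c0, c1⟩ := cl_Phi HD h h' (one_add_ne hzr)
  rw [← Z2, h1] at c1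
  rw [h1] at c0
  obtain ⟨f, hf, hf'⟩ := (cl_eq_iff c0 (one_add_ne hZr)).1 c1
  have hh : ιL b + ιL 1 * phi Θ z = ιL f + ιL f * phi Θ z := by
    rw [map_one]; linear_combination hf'
  obtain ⟨q1, q2⟩ := ind1 hZr hh
  rw [hb', q1, ← q2, map_one]

theorem Phi_mul (HD : ∀ x y : K, ∃ z, z ∉ S2 p x y) {Θ : KOne K p ≃ₗ[ZMod p] KOne L p}
    (h : LP Θ) (h' : LP Θ.symm) (x y : K) : Phi HD Θ (x * y) = Phi HD Θ x * Phi HD Θ y := by
  have h00 : Phi HD Θ 0 = 0 := by
    have := Phi_add HD h h' 0 0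
    rw [add_zero] at this
    linear_combination -this
  -- case: second factor outside F
  have key : ∀ x y : K, y ∉ (ιK).range → Phi HD Θ (x * y) = Phi HD Θ x * Phi HD Θ y := by
    intro x y hy
    by_cases hx : x = 0
    · subst hx; rw [zero_mul, h00, zero_mul]
    have hy0 := ne_zero_of_not_range hy
    have h1y := one_add_ne hy
    obtain ⟨X0, X1⟩ := cl_Phi HD h h' hx
    obtain ⟨Y0, Y1⟩ := cl_Phi HD h h' hy0
    obtain ⟨Z0, Z1⟩ := cl_Phi HD h h' h1y
    have hYr := image_not_range hy Y0 Y1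
    obtain ⟨A0, A1⟩ := cl_Phi HD h h' (mul_ne_zero hx hy0)
    obtain ⟨B0, B1⟩ := cl_Phi HD h h' (mul_ne_zero hx h1y)
    have e1 : cl p (Phi HD Θ (x * y)) = cl p (Phi HD Θ x * Phi HD Θ y) := by
      rw [A1, cl_mul hx hy0, cl_mul X0 Y0, map_add, X1, Y1]
    have e2 : cl p (Phi HD Θ (x * (1 + y))) = cl p (Phi HD Θ x * Phi HD Θ (1 + y)) := by
      rw [B1, cl_mul hx h1y, cl_mul X0 Z0, map_add, X1, Z1]
    obtain ⟨f, hf, hf'⟩ := (cl_eq_iff A0 (mul_ne_zero X0 Y0)).1 e1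
    obtain ⟨g, hg, hg'⟩ := (cl_eq_iff B0 (mul_ne_zero X0 Z0)).1 e2
    rw [mul_add, mul_one, Phi_add HD h h', hf', Phi_add HD h h', Phi_one HD h h'] at hg'
    have hh : ιL 1 + ιL f * Phi HD Θ y = ιL g + ιL g * Phi HD Θ y := by
      rw [map_one]
      apply mul_left_cancel₀ X0
      linear_combination hg'
    obtain ⟨q1, q2⟩ := ind1 hYr hh
    rw [hf', q2, ← q1, map_one, one_mul]
  by_cases hy : y ∈ (ιK).range
  · obtain ⟨z, hz⟩ := exists_not_S1 HD y
    have hzr := range_of_S1 hz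
    have hyz : y + z ∉ (ιK).range := by
      obtain ⟨b, rfl⟩ := hy
      rintro ⟨a, ha⟩
      exact hzr ⟨a - b, by rw [map_sub, ha]; ring⟩
    have e1 := key x (y + z) hyz
    rw [mul_add, Phi_add HD h h', Phi_add HD h h', key x z hzr] at e1
    linear_combination e1
  · exact key x y hy

theorem exists_ringHom (HD : ∀ x y : K, ∃ z, z ∉ S2 p x y) {Θ : KOne K p ≃ₗ[ZMod p] KOne L p}
    (h : LP Θ) (h' : LP Θ.symm) :
    ∃ Φ : K →+* L, ∀ x : K, x ≠ 0 → cl p (Φ x) = Θ (cl p x) := by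
  refine ⟨{ toFun := Phi HD Θ, map_one' := Phi_one HD h h', map_mul' := Phi_mul HD h h',
            map_zero' := ?_, map_add' := Phi_add HD h h' }, fun x hx => (cl_Phi HD h h' hx).2⟩
  have := Phi_add HD h h' 0 0
  rw [add_zero] at this
  linear_combination -this

/-- rigidity -/
theorem endo_eq_id (hex : ∃ x : K, x ∉ (ιK).range) (β : K →+* K) (n : ℕ) (hn0 : 0 < n) (hn : n < p)
    (hβ : ∀ x : K, x ≠ 0 → cl p (β x) = n • cl p x) : (∀ x, β x = x) ∧ n = 1 := by
  have key : ∀ x : K, x ∉ (ιK).range → β x = x ∧ n = 1 := by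
    intro x hx
    have hx0 := ne_zero_of_not_range hx
    have h1x := one_add_ne hx
    have e1 : cl p (β x) = cl p (x ^ n) := by rw [cl_pow hx0, hβ x hx0]
    have e2 : cl p (β (1 + x)) = cl p ((1 + x) ^ n) := by rw [cl_pow h1x, hβ _ h1x]
    obtain ⟨f, hf, hf'⟩ := (cl_eq_iff ((_root_.map_ne_zero β).2 hx0) (pow_ne_zero _ hx0)).1 e1
    obtain ⟨g, hg, hg'⟩ := (cl_eq_iff ((_root_.map_ne_zero β).2 h1x) (pow_ne_zero _ h1x)).1 e2
    rw [map_add, map_one, hf'] at hg'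
    have h8 : C 1 + C f * X ^ n - C g * (1 + X) ^ n = (0 : (FF K p)[X]) := by
      apply indep (powIn K p) hK hx
      · refine lt_of_le_of_lt (natDegree_sub_le _ _) (max_lt ?_ ?_)
        · refine lt_of_le_of_lt (natDegree_add_le _ _) (max_lt ?_ ?_)
          · rw [natDegree_C]; exact hp.out.pos
          · exact lt_of_le_of_lt (natDegree_C_mul_X_pow_le _ _) hn
        · refine lt_of_le_of_lt (natDegree_C_mul_le _ _) ?_
          refine lt_of_le_of_lt natDegree_pow_le ?_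
          have : (1 + X : (FF K p)[X]).natDegree ≤ 1 := by
            refine (natDegree_add_le _ _).trans ?_
            simp
          calc n * (1 + X : (FF K p)[X]).natDegree ≤ n * 1 := Nat.mul_le_mul_left _ this
            _ < p := by omega
      · simp only [map_sub, map_add, map_mul, map_pow, aeval_X, aeval_C, map_one]
        rw [hg']
        ring
    have hc0 : (1 : FF K p) = g := by
      have h9 := congrArg (fun P => eval 0 P) h8
      simp only [eval_sub, eval_mul, eval_C, eval_pow, eval_add, eval_one, eval_X, add_zero,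
        one_pow, mul_one, zero_pow hn0.ne', mul_zero, eval_zero] at h9
      linear_combination h9
    have hn1 : n = 1 := by
      by_contra hne
      have h9 := congrArg (fun P => coeff (derivative P) 0) h8
      simp only [derivative_sub, derivative_add, derivative_C, derivative_C_mul, derivative_X_pow,
        coeff_sub, coeff_add, coeff_zero, coeff_C_mul, derivative_pow, derivative_one, derivative_X,
        derivative_zero] at h9
      rw [coeff_zero_eq_eval_zero, coeff_zero_eq_eval_zero] at h9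
      simp only [eval_mul, eval_C, eval_pow, eval_add, eval_one, eval_X, add_zero, one_pow,
        mul_one, zero_add, zero_pow (show n - 1 ≠ 0 by omega), mul_zero, eval_natCast] at h9
      rw [← hc0] at h9
      have : ((n : ℕ) : FF K p) = 0 := by linear_combination -h9
      rw [CharP.cast_eq_zero_iff (FF K p) p] at this
      exact absurd (Nat.le_of_dvd hn0 this) (by omega)
    subst hn1
    refine ⟨?_, rfl⟩
    rw [pow_one] at hg' hf'
    rw [← hc0, map_one, one_mul] at hg'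
    rw [hf']
    linear_combination hg'
  obtain ⟨x0, hx0⟩ := hex
  refine ⟨fun x => ?_, (key x0 hx0).2⟩
  by_cases hx : x ∈ (ιK).range
  · have : x + x0 ∉ (ιK).range := by
      obtain ⟨b, rfl⟩ := hx
      rintro ⟨a, ha⟩
      exact hx0 ⟨a - b, by rw [map_sub, ha]; ring⟩
    have e1 := (key _ this).1
    rw [map_add, (key x0 hx0).1] at e1
    linear_combination e1
  · exact (key x hx).1

theorem LP_trans {M : Type*} [Field M] [CharP M p] {Θ : KOne K p ≃ₗ[ZMod p] KOne L p}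
    {Θ' : KOne L p ≃ₗ[ZMod p] KOne M p} (h : LP Θ) (h' : LP Θ') : LP (Θ.trans Θ') := by
  intro x hx s hs x' hx'0 hx'
  obtain ⟨s1, hs1, h1⟩ := h x hx s hs (rp Θ x) (rp_ne _ _) (cl_rp _ _)
  obtain ⟨s2, hs2, h2⟩ := h' (rp Θ x) (rp_not_range Θ hx) s1 hs1 x' hx'0 (by rw [hx', cl_rp]; rfl)
  exact ⟨s2, hs2, by rw [← h2, ← h1]; rfl⟩

theorem LP_scal_one (hex : ∃ x : K, x ∉ (ιK).range) {c : ZMod p} (hc : c ≠ 0)
    (h : LP (scal c hc (LinearEquiv.refl (ZMod p) (KOne K p)))) : c = 1 := by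
  obtain ⟨x, hx⟩ := hex
  have hx0 := ne_zero_of_not_range hx
  have h1x := one_add_ne hx
  set n := c.val with hn
  have hcn : (n : ZMod p) = c := ZMod.natCast_zmod_val c
  have hnp : n < p := ZMod.val_lt c
  have hn0 : 0 < n := by
    rcases Nat.eq_zero_or_pos n with h0 | h0
    · rw [h0, Nat.cast_zero] at hcn; exact absurd hcn.symm hc
    · exact h0
  obtain ⟨s, hs, hs'⟩ := h x hx 1 one_ne_zero (x ^ n) (pow_ne_zero _ hx0) (by
    rw [scal_apply, ← hcn, Nat.cast_smul_eq_nsmul, cl_pow hx0]; rfl)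
  rw [scal_apply, ← hcn, Nat.cast_smul_eq_nsmul] at hs'
  rw [map_one, one_mul] at hs'
  change n • cl p (1 + x) = _ at hs'
  rw [← cl_pow h1x] at hs'
  have hn1 : n = 1 := by
    by_contra hne
    have hnz : 1 + ιK s * x ^ n ≠ 0 := by
      intro h0
      have h8 : C 1 + C s * X ^ n = (0 : (FF K p)[X]) := by
        apply indep (powIn K p) hK hx
        · refine lt_of_le_of_lt (natDegree_add_le _ _) (max_lt ?_ ?_)
          · rw [natDegree_C]; exact hp.out.pos
          · exact lt_of_le_of_lt (natDegree_C_mul_X_pow_le _ _) hnp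
        · simpa using h0
      have h9 := congrArg (fun P => coeff P 0) h8
      simp only [coeff_add, coeff_C_mul_X_pow, coeff_C, coeff_zero, if_neg hn0.ne] at h9
      simp at h9
    obtain ⟨f, hf, hf'⟩ := (cl_eq_iff (pow_ne_zero _ h1x) hnz).1 hs'
    have h8 : (1 + X) ^ n - C f * (C 1 + C s * X ^ n) = (0 : (FF K p)[X]) := by
      apply indep (powIn K p) hK hx
      · refine lt_of_le_of_lt (natDegree_sub_le _ _) (max_lt ?_ ?_)
        · refine lt_of_le_of_lt natDegree_pow_le ?_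
          have : (1 + X : (FF K p)[X]).natDegree ≤ 1 := by
            refine (natDegree_add_le _ _).trans ?_
            simp
          calc n * (1 + X : (FF K p)[X]).natDegree ≤ n * 1 := Nat.mul_le_mul_left _ this
            _ < p := by omega
        · refine lt_of_le_of_lt (natDegree_C_mul_le _ _) ?_
          refine lt_of_le_of_lt (natDegree_add_le _ _) (max_lt ?_ ?_)
          · rw [natDegree_C]; exact hp.out.pos
          · exact lt_of_le_of_lt (natDegree_C_mul_X_pow_le _ _) hnp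
      · simp only [map_sub, map_add, map_mul, map_pow, aeval_X, aeval_C, map_one]
        rw [hf']
        ring
    have h9 := congrArg (fun P => coeff (derivative P) 0) h8
    simp only [derivative_sub, derivative_add, derivative_C, derivative_C_mul, derivative_X_pow,
      coeff_sub, coeff_add, coeff_zero, coeff_C_mul, derivative_pow, derivative_one, derivative_X,
      derivative_zero] at h9
    rw [coeff_zero_eq_eval_zero, coeff_zero_eq_eval_zero] at h9
    simp only [eval_mul, eval_C, eval_pow, eval_add, eval_one, eval_X, add_zero, one_pow,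
      mul_one, zero_add, zero_pow (show n - 1 ≠ 0 by omega), mul_zero, eval_natCast, sub_zero] at h9
    rw [CharP.cast_eq_zero_iff (FF K p) p] at h9
    exact absurd (Nat.le_of_dvd hn0 h9) (by omega)
  rw [← hcn, hn1, Nat.cast_one]

theorem exists_LP_both {Θ : KOne K p ≃ₗ[ZMod p] KOne L p} (hΘ : IsCompatible Θ)
    (HP : ∀ x : K, ∃ y, y ∉ (FF K p)⟮x⟯) (HPL : ∀ x : L, ∃ y, y ∉ (FF L p)⟮x⟯) :
    ∃ (c : ZMod p) (hc : c ≠ 0), LP (scal c hc Θ) ∧ LP (scal c hc Θ).symm := by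
  obtain ⟨c, hc, h1⟩ := exists_LP hΘ HP
  obtain ⟨c', hc', h2⟩ := exists_LP (compat_symm hΘ) HPL
  have hex : ∃ x : K, x ∉ (ιK).range := by
    obtain ⟨y, hy⟩ := HP 0
    exact ⟨y, not_range (powIn K p) hK hy⟩
  have h3 := LP_trans h1 h2
  have h4 : (scal c hc Θ).trans (scal c' hc' Θ.symm) =
      scal (c' * c) (mul_ne_zero hc' hc) (LinearEquiv.refl (ZMod p) (KOne K p)) := by
    ext u
    rw [LinearEquiv.trans_apply, scal_apply, scal_apply, scal_apply, map_smul,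
      LinearEquiv.symm_apply_apply, smul_smul]
    rfl
  rw [h4] at h3
  have h5 := LP_scal_one hex _ h3
  have h6 : (scal c hc Θ).symm = scal c' hc' Θ.symm := by
    ext u
    rw [scal_apply, LinearEquiv.symm_apply_eq, scal_apply, map_smul, LinearEquiv.apply_symm_apply,
      smul_smul, mul_comm c c', h5, one_smul]
  exact ⟨c, hc, h1, h6 ▸ h2⟩

end FTPG

end Crest.Agent.H1.Milnor
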