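import Crest.Agent.H1.MilnorD

/-!
Field-theoretic input for finitely generated fields of transcendence degree at least two over
algebraically closed fields, and the final assembly.
-/

set_option autoImplicit false
set_option linter.unusedSectionVars false
set_option linter.unusedVariables false

open Polynomial IntermediateField Crest.NumberTheoryR.MilnorK
open scoped TensorProduct

namespace Crest.Agent.H1.Milnor

section Dim

variable {K : Type*} [Field K] {p : ℕ} [hp : Fact p.Prime] [hK : CharP K p]

theorem HD_of_HP (HP : ∀ x : K, ∃ y, y ∉ (FF K p)⟮x⟯) : ∀ x y : K, ∃ z, z ∉ S2 p x y := by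
  intro x y
  by_contra hcon
  push Not at hcon
  have htop : S2 p x y = ⊤ := by rw [eq_top_iff]; intro z _; exact hcon z
  have hspan : Submodule.span (FF K p) (Set.range ![1, x, y]) = ⊤ := by
    rw [← htop]
    unfold S2
    congr 1
    ext z
    simp [Matrix.range_cons, Matrix.range_empty]
    tauto
  have hfin : Module.Finite (FF K p) K := by
    refine ⟨⟨(Set.toFinite (Set.range ![1, x, y])).toFinset, ?_⟩⟩
    rw [Set.Finite.coe_toFinset]; exact hspan
  have hle : Module.finrank (FF K p) K ≤ 3 := by
    have := finrank_range_le_card (R := FF K p) (b := ![1, x, y])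
    rw [Set.finrank, hspan, finrank_top] at this
    simpa using this
  obtain ⟨x0, hx0⟩ := HP 0
  have hx0r := not_range (powIn K p) hK hx0
  obtain ⟨y0, hy0⟩ := HP x0
  have h1 := finrank_adjoin (powIn K p) hK hx0r
  have h2 := Module.finrank_mul_finrank (FF K p) (FF K p)⟮x0⟯ K
  have h3 : Module.finrank (FF K p)⟮x0⟯ K ≠ 1 := by
    intro h
    have : (FF K p)⟮x0⟯ = ⊤ := IntermediateField.finrank_eq_one_iff_eq_top.1 h
    rw [this] at hy0
    exact hy0 trivial
  have h4 : 0 < Module.finrank (FF K p)⟮x0⟯ K := by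
    have : Module.Finite (FF K p)⟮x0⟯ K := Module.Finite.right (FF K p) _ _
    exact Module.finrank_pos
  rw [h1] at h2
  have h5 := hp.out.two_le
  have : 2 * 2 ≤ p * Module.finrank (FF K p)⟮x0⟯ K := Nat.mul_le_mul h5 (by omega)
  omega

end Dim

section Alg

universe u

variable {k K : Type u} [Field k] [Field K] [Algebra k K] {p : ℕ} [hp : Fact p.Prime]
  [hK : CharP K p]

theorem der_pow_p {N : Type*} [AddCommGroup N] [Module K N] [Module k N]
    (D : Derivation k K N) (a : K) : D (a ^ p) = 0 := by
  rw [Derivation.leibniz_pow]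
  have : ((p : ℕ) : K) = 0 := CharP.cast_eq_zero K p
  rw [← Nat.cast_smul_eq_nsmul K, this, zero_smul]

theorem der_div {N : Type*} [AddCommGroup N] [Module K N] [Module k N]
    (D : Derivation k K N) {a : K} (h : D a = 0) : D a⁻¹ = 0 := by
  rw [Derivation.leibniz_inv, h, smul_zero]

theorem HP_of (hfg : Algebra.EssFiniteType k K) (h2 : 2 ≤ Algebra.trdeg k K) :
    ∀ x : K, ∃ y, y ∉ (FF K p)⟮x⟯ := by
  intro x
  by_contra hcon
  push Not at hcon
  let E := k⟮x⟯
  have hfg' : Algebra.EssFiniteType E K := Algebra.EssFiniteType.of_comp k E K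
  have hD : ∀ a : K, KaehlerDifferential.D E K a = 0 := by
    intro a
    have ha := hcon a
    induction ha using IntermediateField.adjoin_induction with
    | mem z hz =>
      rw [Set.mem_singleton_iff] at hz
      rw [hz]
      exact (KaehlerDifferential.D E K).map_algebraMap (⟨x, mem_adjoin_simple_self k x⟩ : E)
    | algebraMap z =>
      obtain ⟨c, hc⟩ := mem_rangeF (p := p) |>.1 (⟨z, rfl⟩ : algebraMap (FF K p) K z ∈ (algebraMap (FF K p) K).range)
      rw [← hc]
      exact der_pow_p _ c
    | add u v _ _ hu hv => rw [map_add, hu, hv, add_zero]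
    | inv u _ hu => exact der_div _ hu
    | mul u v _ _ hu hv => rw [Derivation.leibniz, hu, hv, smul_zero, smul_zero, add_zero]
  have hsub : Subsingleton (Ω[K⁄E]) := by
    have := KaehlerDifferential.span_range_derivation E K
    have h0 : Set.range (KaehlerDifferential.D E K) = {0} := by
      ext z; constructor
      · rintro ⟨a, rfl⟩; exact hD a
      · rintro rfl; exact ⟨0, map_zero _⟩
    rw [h0, Submodule.span_zero_singleton] at this
    exact (Submodule.subsingleton_iff K).1 (subsingleton_of_bot_eq_top this)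
  have hunr : Algebra.FormallyUnramified E K := ⟨hsub⟩
  have hsep := (Algebra.FormallyUnramified.iff_isSeparable E K).1 hunr
  have halg : Algebra.IsAlgebraic E K := inferInstance
  have halg' : Algebra.IsAlgebraic (Algebra.adjoin k ({x} : Set K)) K :=
    IntermediateField.isAlgebraic_adjoin_iff_top.1 halg
  have := Algebra.IsAlgebraic.trdeg_le_cardinalMk k ({x} : Set K)
  have h3 := h2.trans this
  simp at h3

/-- the maximal perfect subfield as an intermediate field -/
noncomputable def perfInt (k K : Type u) [Field k] [Field K] [Algebra k K] (p : ℕ)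
    [hp : Fact p.Prime] [hK : CharP K p] [IsAlgClosed k] : IntermediateField k K where
  carrier := {x | ∀ n : ℕ, ∃ y, y ^ (p ^ n) = x}
  mul_mem' := by
    intro a b ha hb n
    obtain ⟨y, hy⟩ := ha n
    obtain ⟨z, hz⟩ := hb n
    exact ⟨y * z, by rw [mul_pow, hy, hz]⟩
  one_mem' := fun n => ⟨1, one_pow _⟩
  zero_mem' := fun n => ⟨0, zero_pow (pow_ne_zero _ hp.out.ne_zero)⟩
  add_mem' := by
    intro a b ha hb n
    obtain ⟨y, hy⟩ := ha n
    obtain ⟨z, hz⟩ := hb n
    exact ⟨y + z, by rw [add_pow_char_pow, hy, hz]⟩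
  algebraMap_mem' := by
    intro r n
    obtain ⟨z, hz⟩ := IsAlgClosed.exists_pow_nat_eq r (pow_pos hp.out.pos n)
    exact ⟨algebraMap k K z, by rw [← map_pow, hz]⟩
  inv_mem' := by
    intro a ha n
    obtain ⟨y, hy⟩ := ha n
    exact ⟨y⁻¹, by rw [inv_pow, hy]⟩

theorem mem_perfInt [IsAlgClosed k] {x : K} :
    x ∈ perfInt k K p ↔ ∀ n : ℕ, ∃ y, y ^ (p ^ n) = x := Iff.rfl

theorem perfInt_eq_bot [IsAlgClosed k] (hfg : Algebra.EssFiniteType k K) :
    perfInt k K p = ⊥ := by
  set M := perfInt k K p with hM
  have hMp : CharP M p := (algebraMap M K).charP (algebraMap M K).injective p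
  have hroot : ∀ m : M, ∃ m' : M, m' ^ p = m := by
    intro m
    obtain ⟨a, ha⟩ := (mem_perfInt.1 m.2) 1
    rw [pow_one] at ha
    have haM : a ∈ M := by
      rw [hM, mem_perfInt]
      intro n
      obtain ⟨b, hb⟩ := (mem_perfInt.1 m.2) (n + 1)
      refine ⟨b, ?_⟩
      apply frobenius_inj K p
      rw [frobenius_def, frobenius_def, ← pow_mul, ← pow_succ, hb, ha]
    exact ⟨⟨a, haM⟩, Subtype.ext ha⟩
  have hperf : PerfectRing M p := PerfectRing.ofSurjective M p (by
    intro m
    obtain ⟨m', hm'⟩ := hroot m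
    exact ⟨m', by rw [frobenius_def, hm']⟩)
  have hperf' : PerfectField M := PerfectRing.toPerfectField M p
  have hfg' : Algebra.EssFiniteType M K := Algebra.EssFiniteType.of_comp k M K
  obtain ⟨s, hs, hsep⟩ := exists_isTranscendenceBasis_and_isSeparable_of_perfectField M K
  let E0 := IntermediateField.adjoin k (s : Set K)
  let E1 := IntermediateField.adjoin M (s : Set K)
  have hfg0 : Algebra.EssFiniteType E0 K := Algebra.EssFiniteType.of_comp k E0 K
  let D := KaehlerDifferential.D E0 K
  have hDM : ∀ m : M, D (algebraMap M K m) = 0 := by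
    intro m
    obtain ⟨m', hm'⟩ := hroot m
    rw [← hm', map_pow]
    exact der_pow_p _ _
  have hDs : ∀ x ∈ s, D x = 0 := by
    intro x hx
    exact D.map_algebraMap (⟨x, IntermediateField.subset_adjoin k _ hx⟩ : E0)
  have hDE1 : ∀ e ∈ E1, D e = 0 := by
    intro a ha
    induction ha using IntermediateField.adjoin_induction with
    | mem z hz => exact hDs z hz
    | algebraMap z => exact hDM z
    | add u v _ _ hu hv => rw [map_add, hu, hv, add_zero]
    | inv u _ hu => exact der_div _ hu
    | mul u v _ _ hu hv => rw [Derivation.leibniz, hu, hv, smul_zero, smul_zero, add_zero]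
  have hst : IsScalarTower E1 K (Ω[K⁄E0]) := inferInstance
  let DL : K →ₗ[E1] (Ω[K⁄E0]) :=
    { toFun := D
      map_add' := map_add D
      map_smul' := fun a b => by
        have h0 : D (algebraMap E1 K a) = 0 := hDE1 _ a.2
        rw [Algebra.smul_def, Derivation.leibniz, h0, smul_zero, add_zero]
        exact algebraMap_smul K a (D b) }
  let D' : Derivation E1 K (Ω[K⁄E0]) := Derivation.mk' DL (fun a b => D.leibniz a b)
  have hD' : ∀ a : K, D a = 0 := by
    intro a
    have h1 : D' a = D a := rfl
    have hsub : Subsingleton (Ω[K⁄E1]) := by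
      have : Algebra.FormallyUnramified E1 K := Algebra.FormallyUnramified.of_isSeparable E1 K
      exact this.subsingleton_kaehlerDifferential
    rw [← h1, ← Derivation.liftKaehlerDifferential_comp_D D' a,
      Subsingleton.elim (KaehlerDifferential.D E1 K a) 0, map_zero]
  have hsub : Subsingleton (Ω[K⁄E0]) := by
    have := KaehlerDifferential.span_range_derivation E0 K
    have h0 : Set.range (KaehlerDifferential.D E0 K) = {0} := by
      ext z; constructor
      · rintro ⟨a, rfl⟩; exact hD' a
      · rintro rfl; exact ⟨0, map_zero _⟩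
    rw [h0, Submodule.span_zero_singleton] at this
    exact (Submodule.subsingleton_iff K).1 (subsingleton_of_bot_eq_top this)
  have hunr : Algebra.FormallyUnramified E0 K := ⟨hsub⟩
  have hsep0 := (Algebra.FormallyUnramified.iff_isSeparable E0 K).1 hunr
  have halg : Algebra.IsAlgebraic E0 K := inferInstance
  have halg' : Algebra.IsAlgebraic (Algebra.adjoin k (s : Set K)) K :=
    IntermediateField.isAlgebraic_adjoin_iff_top.1 halg
  have h1 := Algebra.IsAlgebraic.trdeg_le_cardinalMk k (s : Set K)
  have h2 : Cardinal.mk s = Algebra.trdeg M K := hs.cardinalMk_eq_trdeg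
  have h3 : Algebra.trdeg k M + Algebra.trdeg M K = Algebra.trdeg k K := trdeg_add_eq k M
  have h4 : Algebra.trdeg k M = 0 := by
    have h5 : Algebra.trdeg k M + Algebra.trdeg M K ≤ 0 + Algebra.trdeg M K := by
      rw [h3, zero_add, ← h2]; exact h1
    have h6 : Algebra.trdeg M K < Cardinal.aleph0 := by
      rw [← h2]; exact Cardinal.mk_lt_aleph0
    have h7 := (Cardinal.add_le_add_iff_of_lt_aleph0 h6).1 h5
    exact nonpos_iff_eq_zero.1 h7
  have h5 : Algebra.IsAlgebraic k M := trdeg_eq_zero_iff.1 h4
  rw [eq_bot_iff]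
  intro x hx
  have h6 : IsIntegral k (⟨x, hx⟩ : M) := (h5.isAlgebraic _).isIntegral
  have h7 : IsIntegral k x := by
    have := h6.map (IsScalarTower.toAlgHom k M K)
    simpa using this
  rw [IntermediateField.mem_bot]
  have h8 : Algebra.IsIntegral k (Algebra.adjoin k ({x} : Set K)) :=
    Algebra.IsIntegral.adjoin (by simpa using h7)
  obtain ⟨y, hy⟩ := (IsAlgClosed.algebraMap_bijective_of_isIntegral (k := k)
    (K := Algebra.adjoin k ({x} : Set K))).2 (⟨x, Algebra.subset_adjoin (by simp)⟩ : Algebra.adjoin k ({x} : Set K))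
  exact ⟨y, congrArg Subtype.val hy⟩

end Alg

section Final

variable {K : Type*} [Field K] {p : ℕ} [hp : Fact p.Prime] [hK : CharP K p]

theorem essFG (k : Subfield K)
    (h : ∃ s : Finset K, Subfield.closure ((k : Set K) ∪ (s : Set K)) = ⊤) :
    Algebra.EssFiniteType k K := by
  rw [← IntermediateField.fg_top_iff]
  obtain ⟨s, hs⟩ := h
  refine ⟨s, ?_⟩
  rw [eq_top_iff]
  intro x _
  have hx : x ∈ Subfield.closure ((k : Set K) ∪ (s : Set K)) := by rw [hs]; trivial
  have hle : Subfield.closure ((k : Set K) ∪ (s : Set K)) ≤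
      (IntermediateField.adjoin k (s : Set K)).toSubfield := by
    rw [Subfield.closure_le]
    rintro y (hy | hy)
    · exact IntermediateField.algebraMap_mem _ (⟨y, hy⟩ : k)
    · exact IntermediateField.subset_adjoin k _ hy
  exact hle hx

theorem mem_k_iff (k : Subfield K) [IsAlgClosed k]
    (h : ∃ s : Finset K, Subfield.closure ((k : Set K) ∪ (s : Set K)) = ⊤) (x : K) :
    x ∈ k ↔ ∀ n : ℕ, ∃ y, y ^ (p ^ n) = x := by
  have h1 := perfInt_eq_bot (p := p) (essFG k h)
  rw [← mem_perfInt (k := k), h1, IntermediateField.mem_bot]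
  constructor
  · intro hx; exact ⟨⟨x, hx⟩, rfl⟩
  · rintro ⟨y, rfl⟩; exact y.2

end Final

end Crest.Agent.H1.Milnor
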